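import Vale.Agent.P025.R2.H373.Spec
import Vale.Agent.P025.R2.H544.Defs

/-!
# P025: the patching squares of all radii (helper628)

`K` (and all its extensions) carries one structure `Algebra (RatFunc C) K`, `X ↦ T`.  For a radius
`c : Cˣ` the fields `F0r C c = F0 C`, `F1r C c = F1 C`, `F2r C c = F2 C` are algebras over
`RatFunc C` by `f(t) ↦ f(c t)`, i.e. `t = T / c`: `F1r C c` = functions on `|T| ≤ ‖c‖`,
`F2r C c` = functions on `|T| > ‖c‖`.
-/

open Polynomial

universe u

set_option linter.unusedSectionVars false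

namespace P025H628

open P025H373 P025H544

noncomputable section

section Scale

variable {C : Type u} [NontriviallyNormedField C] [IsUltrametricDist C] [CompleteSpace C]
  [IsAlgClosed C]

/-- `C`-algebra homomorphisms from `C(t)` are determined by the image of `t`. -/
theorem ratFunc_ext {A : Type*} [Field A] [Algebra C A] {f g : RatFunc C →ₐ[C] A}
    (h : f RatFunc.X = g RatFunc.X) : f = g := by
  apply AlgHom.coe_ringHom_injective
  apply IsFractionRing.injective_comp_algebraMap (A := C[X])
  have : (f.comp (IsScalarTower.toAlgHom C C[X] (RatFunc C))) =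
      (g.comp (IsScalarTower.toAlgHom C C[X] (RatFunc C))) := by
    apply Polynomial.algHom_ext
    simpa using h
  exact congrArg AlgHom.toRingHom this

theorem scale_scale (a b : Cˣ) (f : RatFunc C) :
    scale (a : C) a.ne_zero (scale (b : C) b.ne_zero f) =
      scale ((b * a : Cˣ) : C) (b * a).ne_zero f := by
  have : (scale (a : C) a.ne_zero).toAlgHom.comp (scale (b : C) b.ne_zero).toAlgHom =
      (scale ((b * a : Cˣ) : C) (b * a).ne_zero).toAlgHom := by
    apply ratFunc_ext
    have : ∀ (x : C), scale (a : C) a.ne_zero (RatFunc.C x) = RatFunc.C x := fun x =>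
      (scale (a : C) a.ne_zero).commutes x
    simp [this, mul_assoc]
  exact DFunLike.congr_fun this f

end Scale

variable (C : Type u) [NontriviallyNormedField C] [IsUltrametricDist C] [CompleteSpace C]
  [IsAlgClosed C]

/-- The Gauss field of radius `‖c‖`. -/
def F0r (_c : Cˣ) : Type u := F0 C

/-- Meromorphic functions on `|T| ≤ ‖c‖`. -/
def F1r (_c : Cˣ) : Type u := F1 C

/-- Meromorphic functions on `|T| > ‖c‖`. -/
def F2r (_c : Cˣ) : Type u := F2 C

variable (c : Cˣ)

instance : NormedField (F0r C c) := inferInstanceAs (NormedField (F0 C))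
instance : CompleteSpace (F0r C c) := inferInstanceAs (CompleteSpace (F0 C))
instance : IsUltrametricDist (F0r C c) := inferInstanceAs (IsUltrametricDist (F0 C))
instance : Field (F1r C c) := inferInstanceAs (Field (F1 C))
instance : Field (F2r C c) := inferInstanceAs (Field (F2 C))
instance : NormedAlgebra C (F0r C c) := inferInstanceAs (NormedAlgebra C (F0 C))
instance : Algebra C (F1r C c) := inferInstanceAs (Algebra C (F1 C))
instance : Algebra C (F2r C c) := inferInstanceAs (Algebra C (F2 C))
instance : Algebra (F1r C c) (F0r C c) := inferInstanceAs (Algebra (F1 C) (F0 C))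
instance : Algebra (F2r C c) (F0r C c) := inferInstanceAs (Algebra (F2 C) (F0 C))

/-- `f(t) ↦ f(c t)`. -/
instance : Algebra (RatFunc C) (F0r C c) :=
  ((algebraMap (RatFunc C) (F0 C)).comp
    (scale (c : C) c.ne_zero : RatFunc C →+* RatFunc C)).toAlgebra

instance : Algebra (RatFunc C) (F1r C c) :=
  ((algebraMap (RatFunc C) (F1 C)).comp
    (scale (c : C) c.ne_zero : RatFunc C →+* RatFunc C)).toAlgebra

instance : Algebra (RatFunc C) (F2r C c) :=
  ((algebraMap (RatFunc C) (F2 C)).comp
    (scale (c : C) c.ne_zero : RatFunc C →+* RatFunc C)).toAlgebra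

variable {C c}

theorem algebraMap_F0r (f : RatFunc C) : algebraMap (RatFunc C) (F0r C c) f =
    (algebraMap (RatFunc C) (F0 C) (scale (c : C) c.ne_zero f) : F0 C) := rfl

theorem algebraMap_F1r (f : RatFunc C) : algebraMap (RatFunc C) (F1r C c) f =
    (algebraMap (RatFunc C) (F1 C) (scale (c : C) c.ne_zero f) : F1 C) := rfl

theorem algebraMap_F2r (f : RatFunc C) : algebraMap (RatFunc C) (F2r C c) f =
    (algebraMap (RatFunc C) (F2 C) (scale (c : C) c.ne_zero f) : F2 C) := rfl

instance : IsScalarTower (RatFunc C) (F1r C c) (F0r C c) :=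
  IsScalarTower.of_algebraMap_eq' rfl

instance : IsScalarTower (RatFunc C) (F2r C c) (F0r C c) :=
  IsScalarTower.of_algebraMap_eq' rfl

private theorem scale_C (a : C) : scale (c : C) c.ne_zero (algebraMap C (RatFunc C) a) =
    algebraMap C (RatFunc C) a := (scale (c : C) c.ne_zero).commutes a

instance : IsScalarTower C (RatFunc C) (F0r C c) :=
  IsScalarTower.of_algebraMap_eq fun a => by
    rw [algebraMap_F0r, scale_C]
    exact (IsScalarTower.algebraMap_apply C (RatFunc C) (F0 C) a)

instance : IsScalarTower C (RatFunc C) (F1r C c) :=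
  IsScalarTower.of_algebraMap_eq fun a => by
    rw [algebraMap_F1r, scale_C]
    exact (IsScalarTower.algebraMap_apply C (RatFunc C) (F1 C) a)

instance : IsScalarTower C (RatFunc C) (F2r C c) :=
  IsScalarTower.of_algebraMap_eq fun a => by
    rw [algebraMap_F2r, scale_C]
    exact (IsScalarTower.algebraMap_apply C (RatFunc C) (F2 C) a)

instance : IsScalarTower C (F1r C c) (F0r C c) :=
  IsScalarTower.of_algebraMap_eq fun a => by
    rw [IsScalarTower.algebraMap_apply C (RatFunc C) (F0r C c),
      IsScalarTower.algebraMap_apply C (RatFunc C) (F1r C c),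
      ← IsScalarTower.algebraMap_apply (RatFunc C) (F1r C c) (F0r C c)]

instance : IsScalarTower C (F2r C c) (F0r C c) :=
  IsScalarTower.of_algebraMap_eq fun a => by
    rw [IsScalarTower.algebraMap_apply C (RatFunc C) (F0r C c),
      IsScalarTower.algebraMap_apply C (RatFunc C) (F2r C c),
      ← IsScalarTower.algebraMap_apply (RatFunc C) (F2r C c) (F0r C c)]

/-- The patching square of radius `‖c‖`. -/
theorem patch (c : Cˣ) : Patch (RatFunc C) (F1r C c) (F2r C c) (F0r C c) where
  inter := by
    intro x y h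
    have hx : (show F1 C from x).1 ∈ F1 C ⊓ F2 C := by
      refine ⟨(show F1 C from x).2, ?_⟩
      have h' : (show F1 C from x).1 = (show F2 C from y).1 := h
      rw [h']
      exact (show F2 C from y).2
    rw [F1_inf_F2] at hx
    obtain ⟨r, hr⟩ := IntermediateField.mem_bot.1 hx
    refine ⟨(scale (c : C) c.ne_zero).symm r, ?_, ?_⟩
    · rw [algebraMap_F1r, AlgEquiv.apply_symm_apply]
      exact Subtype.ext hr
    · rw [algebraMap_F2r, AlgEquiv.apply_symm_apply]
      refine Subtype.ext (hr.trans ?_)
      exact h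
  fact := by
    intro n g
    have hg : IsUnit (show Matrix (Fin n) (Fin n) (F0 C) from g.1) := g.isUnit
    obtain ⟨a, b, ha, hb, hab⟩ := exists_GL_mul (C := C) (n := Fin n)
      (show Matrix (Fin n) (Fin n) (F0 C) from g.1) hg
    exact ⟨IsUnit.unit (M := Matrix (Fin n) (Fin n) (F1r C c)) ha,
      IsUnit.unit (M := Matrix (Fin n) (Fin n) (F2r C c)) hb, Units.ext hab⟩

/-- Restriction of functions from `|T| ≤ ‖c'‖` to `|T| ≤ ‖c‖`, for `‖c‖ ≤ ‖c'‖`. -/
def res1 (c c' : Cˣ) (h : ‖(c : C)‖ ≤ ‖(c' : C)‖) : F1r C c' →ₐ[RatFunc C] F1r C c :=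
  { (sub1 ((c'⁻¹ * c : Cˣ) : C) (c'⁻¹ * c).ne_zero (by
      rw [Units.val_mul, norm_mul, Units.val_inv_eq_inv_val, norm_inv]
      exact inv_mul_le_one_of_le₀ h (norm_nonneg _)) : F1 C →+* F1 C) with
    commutes' := fun f => by
      change sub1 _ _ _ (algebraMap (RatFunc C) (F1 C) (scale (c' : C) c'.ne_zero f)) =
        (algebraMap (RatFunc C) (F1 C) (scale (c : C) c.ne_zero f))
      rw [sub1_algebraMap, scale_scale]
      simp only [mul_inv_cancel_left] }

/-- Restriction of functions from `|T| > ‖c‖` to `|T| > ‖c'‖`, for `‖c‖ ≤ ‖c'‖`. -/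
def res2 (c c' : Cˣ) (h : ‖(c : C)‖ ≤ ‖(c' : C)‖) : F2r C c →ₐ[RatFunc C] F2r C c' :=
  { (sub2 ((c⁻¹ * c' : Cˣ) : C) (c⁻¹ * c').ne_zero (by
      rw [Units.val_mul, norm_mul, Units.val_inv_eq_inv_val, norm_inv]
      rw [← div_eq_inv_mul, one_le_div (norm_pos_iff.2 c.ne_zero)]
      exact h) : F2 C →+* F2 C) with
    commutes' := fun f => by
      change sub2 _ _ _ (algebraMap (RatFunc C) (F2 C) (scale (c : C) c.ne_zero f)) =
        (algebraMap (RatFunc C) (F2 C) (scale (c' : C) c'.ne_zero f))
      rw [sub2_algebraMap, scale_scale]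
      simp only [mul_inv_cancel_left] }

end

end P025H628
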