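import Vale.Agent.P025.R2.H628.Alg
import Vale.Agent.P025.R2.H544.Patch

/-!
# P025, G-III: the gluing step and the Galois closure (helper628)

One radius, abstract patching square `F, F1, F2, F0`.  `j : Z → F1 ⊗ K` is a point of `Z` with
residue ring `F1 ⊗ K`.
-/

open scoped TensorProduct

namespace P025H628

open P025H544

theorem idem_pow {R : Type*} [CommRing R] {e : R} (he : e * e = e) (x : R) (q : ℕ) :
    (x * e + (1 - e)) ^ q = x ^ q * e + (1 - e) := by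
  induction q with
  | zero => simp
  | succ n ih =>
    rw [pow_succ, ih, pow_succ]
    linear_combination (x ^ n * x - x ^ n - x + 1) * he

/-- the unit `x e + (1 - e)` -/
def idemUnit {R : Type*} [CommRing R] {e : R} (he : e * e = e) (x : Rˣ) : Rˣ where
  val := x * e + (1 - e)
  inv := (x⁻¹ : Rˣ) * e + (1 - e)
  val_inv := by
    have h := x.mul_inv
    linear_combination e * h + ((x : R) * (x⁻¹ : Rˣ) - x - (x⁻¹ : Rˣ) + 1) * he
  inv_val := by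
    have h := x.mul_inv
    linear_combination e * h + ((x : R) * (x⁻¹ : Rˣ) - x - (x⁻¹ : Rˣ) + 1) * he

section Glue

variable {F F1 F2 F0 K Z : Type*} [Field F] [Field F1] [Field F2] [Field F0] [Field K] [Field Z]
  [Algebra F F1] [Algebra F F2] [Algebra F F0] [Algebra F1 F0] [Algebra F2 F0]
  [IsScalarTower F F1 F0] [IsScalarTower F F2 F0]
  [Algebra F K] [Algebra F Z] [Algebra K Z] [IsScalarTower F K Z]

/-- the retraction `F1 ⊗ Z → F1 ⊗ K` given by `j : Z → F1 ⊗ K`. -/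
noncomputable def retr (j : Z →ₐ[F] F1 ⊗[F] K) : F1 ⊗[F] Z →ₐ[F] F1 ⊗[F] K :=
  Algebra.TensorProduct.lift (Algebra.TensorProduct.includeLeft : F1 →ₐ[F] F1 ⊗[F] K) j
    (fun _ _ => Commute.all _ _)

@[simp] theorem retr_tmul (j : Z →ₐ[F] F1 ⊗[F] K) (r : F1) (z : Z) :
    retr j (r ⊗ₜ z) = (r ⊗ₜ 1) * j z := by simp [retr]

theorem retr_comp (j : Z →ₐ[F] F1 ⊗[F] K) (hj : ∀ k : K, j (algebraMap K Z k) = 1 ⊗ₜ k)
    (a : F1 ⊗[F] K) : retr j (tL F F1 (IsScalarTower.toAlgHom F K Z) a) = a := by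
  induction a with
  | zero => simp
  | add x y hx hy => rw [map_add, map_add, hx, hy]
  | tmul r k => simp [hj]

theorem gen_tensor (A : Type*) [Field A] [Algebra F A] : Subring.closure
    (Set.range (tL F A (IsScalarTower.toAlgHom F K Z)).toRingHom ∪
      Set.range (Algebra.TensorProduct.includeRight : Z →ₐ[F] A ⊗[F] Z).toRingHom) = ⊤ := by
  rw [eq_top_iff]
  rintro x -
  induction x with
  | zero => exact zero_mem _
  | add x y hx hy => exact add_mem hx hy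
  | tmul r z =>
    have : r ⊗ₜ[F] z = (tL F A (IsScalarTower.toAlgHom F K Z)).toRingHom (r ⊗ₜ 1) *
        (Algebra.TensorProduct.includeRight : Z →ₐ[F] A ⊗[F] Z).toRingHom z := by
      simp
    rw [this]
    exact mul_mem (Subring.subset_closure (Or.inl ⟨_, rfl⟩))
      (Subring.subset_closure (Or.inr ⟨_, rfl⟩))

theorem exists_idem_tensor [FiniteDimensional K Z] [Algebra.IsSeparable K Z]
    (j : Z →ₐ[F] F1 ⊗[F] K) (hj : ∀ k : K, j (algebraMap K Z k) = 1 ⊗ₜ k) :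
    ∃ e : F1 ⊗[F] Z, e * e = e ∧ retr j e = 1 ∧
      ∀ b, b * e = tL F F1 (IsScalarTower.toAlgHom F K Z) (retr j b) * e :=
  exists_idem (K := K) (Z := Z)
    (Algebra.TensorProduct.includeRight : K →ₐ[F] F1 ⊗[F] K).toRingHom
    (tL F F1 (IsScalarTower.toAlgHom F K Z)).toRingHom
    (Algebra.TensorProduct.includeRight : Z →ₐ[F] F1 ⊗[F] Z).toRingHom
    (fun k => by simp) (retr j).toRingHom (retr_comp j hj) (gen_tensor F1)

/-- **Gluing step of (III').** -/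
theorem glue [FiniteDimensional K Z] [Algebra.IsSeparable K Z] [Algebra.IsAlgebraic F Z]
    (hP : Patch F F1 F2 F0) (q : ℕ) (j : Z →ₐ[F] F1 ⊗[F] K)
    (hj : ∀ k : K, j (algebraMap K Z k) = 1 ⊗ₜ k) (h : K) (f : Z) (hh : h ≠ 0) (hf : f ≠ 0)
    (u : (F0 ⊗[F] K)ˣ) (hu : (1 : F0) ⊗ₜ[F] h = bc F F1 F0 K (j f) * (u : F0 ⊗[F] K) ^ q) :
    ∃ y : Z, y ≠ 0 ∧
      (∃ w : (F1 ⊗[F] K)ˣ, (1 : F1) ⊗ₜ[F] h = j y * (w : F1 ⊗[F] K) ^ q) ∧
      (∃ e : F1 ⊗[F] Z, e * e = e ∧ ∃ s : (F1 ⊗[F] Z)ˣ,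
        (1 : F1) ⊗ₜ[F] y = (((1 : F1) ⊗ₜ[F] algebraMap K Z h) * e +
          ((1 : F1) ⊗ₜ[F] f) * (1 - e)) * (s : F1 ⊗[F] Z) ^ q) ∧
      (∃ t : (F2 ⊗[F] Z)ˣ, (1 : F2) ⊗ₜ[F] y = ((1 : F2) ⊗ₜ[F] f) * (t : F2 ⊗[F] Z) ^ q) := by
  obtain ⟨e, he, hπe, hbe⟩ := exists_idem_tensor j hj
  -- units
  let hU : (F1 ⊗[F] K)ˣ := Units.map
    (Algebra.TensorProduct.includeRight : K →ₐ[F] F1 ⊗[F] K).toRingHom.toMonoidHom (Units.mk0 h hh)
  have hhU : (hU : F1 ⊗[F] K) = 1 ⊗ₜ h := rfl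
  let fU : (F1 ⊗[F] K)ˣ := Units.map j.toRingHom.toMonoidHom (Units.mk0 f hf)
  have hfU : (fU : F1 ⊗[F] K) = j f := rfl
  let a0 : (F1 ⊗[F] K)ˣ := hU * fU⁻¹
  have ha0 : (a0 : F1 ⊗[F] K) * j f = 1 ⊗ₜ h := by
    rw [← hfU, ← hhU, ← Units.val_mul]
    simp [a0]
  let aB : (F1 ⊗[F] Z)ˣ := Units.map (tL F F1 (IsScalarTower.toAlgHom F K Z)).toRingHom.toMonoidHom a0
  have haB : (aB : F1 ⊗[F] Z) = tL F F1 (IsScalarTower.toAlgHom F K Z) a0 := rfl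
  let A : (F1 ⊗[F] Z)ˣ := idemUnit he aB
  have hA : (A : F1 ⊗[F] Z) = aB * e + (1 - e) := rfl
  -- the same in `F0 ⊗ Z`
  have he0 : bc F F1 F0 Z e * bc F F1 F0 Z e = bc F F1 F0 Z e := by rw [← map_mul, he]
  let u' : (F0 ⊗[F] Z)ˣ := Units.map (tL F F0 (IsScalarTower.toAlgHom F K Z)).toRingHom.toMonoidHom u
  have hu' : (u' : F0 ⊗[F] Z) = tL F F0 (IsScalarTower.toAlgHom F K Z) u := rfl
  let w0 : (F0 ⊗[F] Z)ˣ := idemUnit he0 u'
  have hw0 : (w0 : F0 ⊗[F] Z) = u' * bc F F1 F0 Z e + (1 - bc F F1 F0 Z e) := rfl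
  have hcomm : ∀ a : F1 ⊗[F] K, bc F F1 F0 Z (tL F F1 (IsScalarTower.toAlgHom F K Z) a) =
      tL F F0 (IsScalarTower.toAlgHom F K Z) (bc F F1 F0 K a) := by
    intro a
    induction a with
    | zero => simp
    | add x y hx hy => simp only [map_add, hx, hy]
    | tmul r k => simp
  have hbca0 : bc F F1 F0 K a0 = (u : F0 ⊗[F] K) ^ q := by
    have h1 : bc F F1 F0 K a0 * bc F F1 F0 K (j f) = 1 ⊗ₜ h := by
      rw [← map_mul, ha0]; simp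
    rw [hu, mul_comm] at h1
    have h2 : IsUnit (bc F F1 F0 K (j f)) := by
      rw [← hfU]; exact fU.isUnit.map (bc F F1 F0 K)
    exact h2.mul_left_cancel h1
  have hglue : bc F F1 F0 Z A = bc F F2 F0 Z ((1 : (F2 ⊗[F] Z)ˣ) : F2 ⊗[F] Z) *
      (w0 : F0 ⊗[F] Z) ^ q := by
    rw [Units.val_one, map_one, one_mul, hw0, idem_pow he0, hA, map_add, map_mul, map_sub, map_one,
      haB, hcomm, hbca0, map_pow, hu']
  obtain ⟨x, hx0, ⟨s, hs⟩, ⟨t, ht⟩⟩ := hP.kummer_glue q A 1 w0 hglue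
  refine ⟨x * f, mul_ne_zero hx0 hf, ?_, ⟨e, he, s, ?_⟩, ⟨t, ?_⟩⟩
  · -- `h = j y w ^ q`
    let s' : (F1 ⊗[F] K)ˣ := Units.map (retr j).toRingHom.toMonoidHom s
    have hs' : (s' : F1 ⊗[F] K) = retr j s := rfl
    refine ⟨s'⁻¹, ?_⟩
    have hjx : j x = (a0 : F1 ⊗[F] K) * (s' : F1 ⊗[F] K) ^ q := by
      have := congrArg (retr j) hs
      rw [retr_tmul, map_mul, map_pow, hA, map_add, map_mul, map_sub, map_one, hπe, haB,
        retr_comp j hj] at this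
      simpa [hs', ← Algebra.TensorProduct.one_def] using this
    have h3 : (s' : F1 ⊗[F] K) ^ q * ((s'⁻¹ : (F1 ⊗[F] K)ˣ) : F1 ⊗[F] K) ^ q = 1 := by
      rw [← mul_pow, Units.mul_inv, one_pow]
    rw [map_mul, hjx, ← ha0]
    linear_combination (-(a0 : F1 ⊗[F] K) * j f) * h3
  · have h1 : (1 : F1) ⊗ₜ[F] (x * f) = ((1 : F1) ⊗ₜ[F] x) * ((1 : F1) ⊗ₜ[F] f) := by simp
    have h2 : (aB : F1 ⊗[F] Z) * ((1 : F1) ⊗ₜ[F] f) * e = ((1 : F1) ⊗ₜ[F] algebraMap K Z h) * e := by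
      have h4 := hbe ((1 : F1) ⊗ₜ[F] f)
      rw [retr_tmul, ← Algebra.TensorProduct.one_def, one_mul] at h4
      rw [mul_assoc, h4, ← mul_assoc, haB, ← map_mul, ha0]
      simp
    rw [h1, hs, hA]
    linear_combination ((s : F1 ⊗[F] Z) ^ q) * h2
  · have h1 : (1 : F2) ⊗ₜ[F] (x * f) = ((1 : F2) ⊗ₜ[F] x) * ((1 : F2) ⊗ₜ[F] f) := by simp
    rw [h1, ht, Units.val_one]
    ring

end Glue

end P025H628
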