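import Mathlib

/-!
# P025, G-III: algebraic lemmas (helper628)

* `exists_idem`: a point of a finite etale algebra with residue ring equal to the base is split off
  by an idempotent;
* `glue_div`: orders modulo `q` of a glued element;
* `isPow_of_normal`: if `j : Z → A` is a point over `K`, `h = j(y) u ^ q` in the field `A` and `y`
  is a `q`-th power in a normal extension `L` of `K`, then `h` is a `q`-th power in `A ⊗ L`.
-/

open scoped TensorProduct

namespace P025H628

section Idem

variable {K Z A B : Type*} [Field K] [Field Z] [Algebra K Z] [FiniteDimensional K Z]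
  [Algebra.IsSeparable K Z] [CommRing A] [CommRing B]

/-- Let `B` be generated by `A` and `Z` (`B = A ⊗ Z`), `π : B → A` a retraction.  Then the kernel
of `π` is generated by an idempotent `1 - e`. -/
theorem exists_idem (φ : K →+* A) (ιA : A →+* B) (ιZ : Z →+* B)
    (hc : ∀ k, ιA (φ k) = ιZ (algebraMap K Z k)) (π : B →+* A) (h1 : ∀ a, π (ιA a) = a)
    (hgen : Subring.closure (Set.range ιA ∪ Set.range ιZ) = ⊤) :
    ∃ e : B, e * e = e ∧ π e = 1 ∧ ∀ b, b * e = ιA (π b) * e := by
  classical
  have : Algebra.FormallyUnramified K Z := Algebra.FormallyUnramified.of_isSeparable K Z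
  obtain ⟨t, ht1, ht2⟩ := (Algebra.FormallyUnramified.iff_exists_tensorProduct (R := K)
    (S := Z)).1 this
  letI : Algebra K A := φ.toAlgebra
  letI : Algebra K B := (ιA.comp φ).toAlgebra
  let iA : A →ₐ[K] B := { ιA with commutes' := fun k => rfl }
  let iZ : Z →ₐ[K] B := { ιZ with commutes' := fun k => (hc k).symm }
  let ρ : B →ₐ[K] A := { π with commutes' := fun k => h1 (φ k) }
  -- the map `Z ⊗ Z → B`
  let ψ : Z ⊗[K] Z →ₐ[K] B :=
    Algebra.TensorProduct.lift ((iA.comp ρ).comp iZ) iZ (fun _ _ => Commute.all _ _)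
  have hψ : ∀ x y, ψ (x ⊗ₜ y) = ιA (π (ιZ x)) * ιZ y := fun x y => by
    simp only [ψ, Algebra.TensorProduct.lift_tmul]
    rfl
  have hπψ : ∀ s, π (ψ s) = π (ιZ (Algebra.TensorProduct.lmul' K s)) := by
    intro s
    induction s with
    | zero => simp
    | add x y hx hy => simp only [map_add, hx, hy]
    | tmul x y => simp [hψ, h1]
  have hkey : ∀ b, b * ψ t = ιA (π b) * ψ t := by
    intro b
    have hb : b ∈ Subring.closure (Set.range ιA ∪ Set.range ιZ) := by rw [hgen]; trivial
    induction hb using Subring.closure_induction with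
    | mem x hx =>
      rcases hx with ⟨a, rfl⟩ | ⟨z, rfl⟩
      · rw [h1]
      · have := congrArg ψ (ht1 z)
        simpa [hψ, sub_mul, sub_eq_zero] using this
    | zero => simp
    | one => simp
    | neg x _ hx => rw [neg_mul, hx, map_neg, map_neg, neg_mul]
    | add x y _ _ hx hy => rw [add_mul, hx, hy, map_add, map_add, add_mul]
    | mul x y _ _ hx hy =>
      rw [mul_assoc, hy, mul_left_comm, hx, map_mul, map_mul]
      ring
  have hπ1 : π (ψ t) = 1 := by rw [hπψ, ht2, map_one, map_one]
  exact ⟨ψ t, by rw [hkey, hπ1, map_one, one_mul], hπ1, hkey⟩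

end Idem

end P025H628
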