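import Vale.Agent.P025.R2.H492.Ext5

/-!
# P025: the ambient field of solvable unramified covers (helper628): definitions

Existence: `P025H816.exists_amb`.

`Amb C K N` : `N/K` Galois, every finite Galois `W/K` in `N` is solvable and unramified, every
solvable unramified cover embeds, and `N` is closed under unramified Kummer extensions.
-/

set_option linter.style.haveILetI false

open Vale.Agent.P019P P025H492

namespace P025H628

universe u

/-- `L/K` is a finite Galois solvable unramified cover. -/
structure IsCov (C K L : Type u) [Field C] [Field K] [Field L] [Algebra C K] [Algebra C L]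
    [Algebra K L] [IsScalarTower C K L] [CFF C K] [CFF C L] [FiniteDimensional K L] : Prop where
  gal : IsGalois K L
  sol : Group.IsSolvable (L ≃ₐ[K] L)
  unr : IsUnr C K L

/-- The properties of the ambient field. -/
structure Amb (C K N : Type u) [Field C] [Field K] [Field N] [Algebra C K] [Algebra C N]
    [Algebra K N] [IsScalarTower C K N] [CFF C K] : Prop where
  gal : IsGalois K N
  /-- finite Galois extensions inside `N` are solvable and unramified -/
  cov : ∀ (W : IntermediateField K N) [FiniteDimensional K W] [IsGalois K W] [CFF C W],
    IsCov C K W
  /-- every solvable unramified cover embeds in `N` -/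
  emb : ∀ (L : Type u) [Field L] [Algebra C L] [Algebra K L] [IsScalarTower C K L] [CFF C L]
    [FiniteDimensional K L], IsCov C K L → Nonempty (L →ₐ[K] N)
  /-- closed under unramified Kummer extensions -/
  kum : ∀ (Z : IntermediateField K N) [FiniteDimensional K Z] [CFF C Z] (n : ℕ), 0 < n →
    ∀ y : Z, y ≠ 0 → (∀ P : Plk C Z, (n : ℤ) ∣ ord P y) → ∃ z : N, z ^ n = y

end P025H628
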