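import Vale.Agent.P025.R2.H544.Patch

/-!
# P025, G-III: from `y` on `Z` to a `q`-th power on the Galois closure (helper628)
-/

set_option linter.style.haveILetI false
set_option linter.unusedSectionVars false

open scoped TensorProduct

namespace P025H628

open P025H544

section Res

/-- One residue field. `κ` a field containing `K1` and `L`; `Z → K1` a retraction,
`z ∈ L`, `z ^ q = y`, `h = j y * w ^ q` in `K1`. Then `h` is a `q`-th power in `κ`. -/
theorem isPow_of_normal {K Z L K1 κ : Type*} [Field K] [Field Z] [Field L] [CommRing K1] [Field κ]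
    [Algebra K Z] [Algebra K L] [Algebra Z L] [IsScalarTower K Z L] [Algebra K K1]
    [Algebra K κ] [Normal K L] (τ : L →ₐ[K] κ) (ι : K1 →ₐ[K] κ) (j : Z →ₐ[K] K1)
    (q : ℕ) (y : Z) (z : L) (hz : z ^ q = algebraMap Z L y) (h : K) (w : K1)
    (hh : algebraMap K K1 h = j y * w ^ q) : ∃ s : κ, s ^ q = algebraMap K κ h := by
  classical
  let Ω := AlgebraicClosure κ
  letI : Algebra Z Ω := ((algebraMap κ Ω).comp (ι.comp j).toRingHom).toAlgebra
  have hZΩ : ∀ a : Z, algebraMap Z Ω a = algebraMap κ Ω (ι (j a)) := fun _ => rfl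
  haveI : IsScalarTower K Z Ω := IsScalarTower.of_algebraMap_eq fun k => by
    rw [hZΩ, AlgHom.commutes, AlgHom.commutes]
    exact IsScalarTower.algebraMap_apply K κ Ω k
  haveI : Algebra.IsAlgebraic K L := Normal.toIsAlgebraic
  haveI : Algebra.IsAlgebraic Z L := Algebra.IsAlgebraic.tower_top (K := K) Z
  let j'' : L →ₐ[Z] Ω := IsAlgClosed.lift
  let τ' : L →ₐ[K] Ω := (IsScalarTower.toAlgHom K κ Ω).comp τ
  -- same image
  obtain ⟨z', hz'⟩ : ∃ z' : L, τ' z' = j'' z := by
    letI : Algebra L Ω := τ'.toRingHom.toAlgebra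
    haveI : IsScalarTower K L Ω := IsScalarTower.of_algebraMap_eq fun k => (τ'.commutes k).symm
    exact ⟨(j''.restrictScalars K).restrictNormal L z,
      (j''.restrictScalars K).restrictNormal_commutes L z⟩
  refine ⟨τ z' * ι w, ?_⟩
  apply (algebraMap κ Ω).injective
  have h2 : algebraMap κ Ω (τ z') = j'' z := hz'
  rw [mul_pow, map_mul, map_pow, h2, ← map_pow, hz, AlgHom.commutes, hZΩ, ← map_pow,
    ← map_mul, ← map_mul, ← hh, AlgHom.commutes]

end Res

/-- In a reduced Artinian ring an element is a `q`-th power if it is one in every residue field. -/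
theorem exists_pow_of_residue {R : Type*} [CommRing R] [IsArtinianRing R] [IsReduced R] (q : ℕ)
    (x : R) (h : ∀ m : Ideal R, m.IsMaximal → ∃ s : R ⧸ m, s ^ q = Ideal.Quotient.mk m x) :
    ∃ s : R, s ^ q = x := by
  choose s hs using fun m : MaximalSpectrum R => h m.asIdeal m.isMaximal
  refine ⟨(IsArtinianRing.equivPi R).symm s, ?_⟩
  apply (IsArtinianRing.equivPi R).injective
  rw [map_pow, AlgEquiv.apply_symm_apply]
  ext m
  rw [IsArtinianRing.equivPi_apply]
  exact hs m

section Tensor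

variable {F F1 K Z L : Type*} [Field F] [Field F1] [Field K] [Field Z] [Field L]
  [Algebra F F1] [Algebra F K] [Algebra F Z] [Algebra F L] [Algebra K Z] [Algebra K L]
  [Algebra Z L] [IsScalarTower F K Z] [IsScalarTower F K L] [IsScalarTower K Z L]

/-- If `z ^ q = y`, `y ∈ Z` with `j(y) ≡ h`, then `h` is a `q`-th power in `F1 ⊗ L`, `L/K` finite
normal. -/
theorem isPow_tensor [FiniteDimensional F L] [IsReduced (F1 ⊗[F] L)] [Normal K L]
    (j : Z →ₐ[F] F1 ⊗[F] K) (hj : ∀ k : K, j (algebraMap K Z k) = 1 ⊗ₜ k)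
    (q : ℕ) (y : Z) (z : L) (hz : z ^ q = algebraMap Z L y) (h : K) (w : F1 ⊗[F] K)
    (hh : (1 : F1) ⊗ₜ[F] h = j y * w ^ q) :
    ∃ s : F1 ⊗[F] L, s ^ q = (1 : F1) ⊗ₜ[F] algebraMap K L h := by
  haveI : IsArtinianRing (F1 ⊗[F] L) := IsArtinianRing.of_finite F1 _
  apply exists_pow_of_residue
  intro m hm
  letI : Field ((F1 ⊗[F] L) ⧸ m) := Ideal.Quotient.field m
  letI : Algebra K (F1 ⊗[F] K) :=
    (Algebra.TensorProduct.includeRight : K →ₐ[F] F1 ⊗[F] K).toRingHom.toAlgebra
  let τ0 : L →+* (F1 ⊗[F] L) ⧸ m := (Ideal.Quotient.mk m).comp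
    (Algebra.TensorProduct.includeRight : L →ₐ[F] F1 ⊗[F] L).toRingHom
  let ι0 : F1 ⊗[F] K →+* (F1 ⊗[F] L) ⧸ m := (Ideal.Quotient.mk m).comp
    (tL F F1 (IsScalarTower.toAlgHom F K L)).toRingHom
  letI : Algebra K ((F1 ⊗[F] L) ⧸ m) := (τ0.comp (algebraMap K L)).toAlgebra
  let τ : L →ₐ[K] (F1 ⊗[F] L) ⧸ m := { τ0 with commutes' := fun k => rfl }
  let ι : F1 ⊗[F] K →ₐ[K] (F1 ⊗[F] L) ⧸ m := { ι0 with
    commutes' := fun k => by
      change Ideal.Quotient.mk m (tL F F1 (IsScalarTower.toAlgHom F K L) (1 ⊗ₜ k)) =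
        Ideal.Quotient.mk m (1 ⊗ₜ algebraMap K L k)
      rw [tL_tmul]; rfl }
  let j' : Z →ₐ[K] F1 ⊗[F] K := { j.toRingHom with commutes' := fun k => hj k }
  exact isPow_of_normal τ ι j' q y z hz h w hh

end Tensor

/-- Version inside a big normal extension `N/K`. -/
theorem exists_galois_isPow {F F1 K N : Type*} [Field F] [Field F1] [Field K] [Field N]
    [Algebra F F1] [Algebra F K] [Algebra F N] [Algebra K N] [IsScalarTower F K N]
    [FiniteDimensional F K] [Normal K N] [Algebra.IsSeparable F K] [Algebra.IsSeparable K N]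
    (Z : IntermediateField K N) [FiniteDimensional K Z]
    (j : Z →ₐ[F] F1 ⊗[F] K) (hj : ∀ k : K, j (algebraMap K Z k) = 1 ⊗ₜ k)
    (q : ℕ) (y : Z) (z : N) (hz : z ^ q = y) (h : K) (w : F1 ⊗[F] K)
    (hh : (1 : F1) ⊗ₜ[F] h = j y * w ^ q) :
    ∃ L : IntermediateField K N, Z ≤ L ∧ z ∈ L ∧ FiniteDimensional K L ∧ IsGalois K L ∧
      ∃ s : F1 ⊗[F] L, s ^ q = (1 : F1) ⊗ₜ[F] algebraMap K L h := by
  haveI : Algebra.IsAlgebraic K N := Normal.toIsAlgebraic
  haveI : FiniteDimensional K (IntermediateField.adjoin K {z}) :=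
    IntermediateField.adjoin.finiteDimensional (Algebra.IsAlgebraic.isAlgebraic z).isIntegral
  let M : IntermediateField K N := Z ⊔ IntermediateField.adjoin K {z}
  haveI : FiniteDimensional K M := IntermediateField.finiteDimensional_sup Z _
  let L : IntermediateField K N := IntermediateField.normalClosure K M N
  have hML : M ≤ L := M.le_normalClosure
  have hZL : Z ≤ L := le_sup_left.trans hML
  have hzL : z ∈ L := (le_sup_right.trans hML) (IntermediateField.mem_adjoin_simple_self K z)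
  haveI : FiniteDimensional K L := normalClosure.is_finiteDimensional K M N
  haveI : Normal K L := normalClosure.normal K M N
  haveI : Algebra.IsSeparable K L := Algebra.isSeparable_tower_bot_of_isSeparable K L N
  haveI : IsGalois K L := ⟨⟩
  letI : Algebra Z L := (IntermediateField.inclusion hZL).toRingHom.toAlgebra
  haveI : IsScalarTower K Z L := IsScalarTower.of_algebraMap_eq fun _ => rfl
  haveI : FiniteDimensional F L := FiniteDimensional.trans F K L
  haveI : Algebra.IsSeparable F L := Algebra.IsSeparable.trans F K L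
  haveI : IsReduced (F1 ⊗[F] L) := isReduced_tensor
  refine ⟨L, hZL, hzL, inferInstance, inferInstance, ?_⟩
  exact isPow_tensor j hj q y ⟨z, hzL⟩ (Subtype.ext hz) h w hh

end P025H628
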