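import Vale.Agent.P025.R2.H628.Ret
import Vale.Agent.P025.R2.H613.Main
import Vale.Agent.P025.R2.H837.LemG

/-!
# P025, G-III: the element `f ∈ Z` with the windings of `h` (helper628)
-/

set_option linter.style.haveILetI false
set_option linter.unusedSectionVars false

open scoped TensorProduct

namespace P025H628

open P025H544 P025H613 P025H837

universe u

section Conn

variable {F F1 F2 F0 L : Type*} [Field F] [Field F1] [Field F2] [Field F0]
  [Algebra F F1] [Algebra F F2] [Algebra F F0] [Algebra F1 F0] [Algebra F2 F0]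
  [IsScalarTower F F1 F0] [IsScalarTower F F2 F0] [Field L] [Algebra F L]

/-- from paths avoiding `v` to functions. -/
theorem conn_of_step (v : Pt F F1 L)
    (hstep : ∀ e e' : Pt F F0 L, edge F F1 F0 L e = v → edge F F1 F0 L e' = v →
      Relation.ReflTransGen (Step F F1 F2 F0 L v) (edge F F2 F0 L e) (edge F F2 F0 L e'))
    {A : Type*} [Nonempty A] (α : Pt F F1 L → A) (β : Pt F F2 L → A)
    (h : ∀ w : Pt F F0 L, edge F F1 F0 L w ≠ v → α (edge F F1 F0 L w) = β (edge F F2 F0 L w)) :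
    ∃ c : A, ∀ w : Pt F F0 L, edge F F1 F0 L w = v → β (edge F F2 F0 L w) = c := by
  by_cases hE : ∃ w0 : Pt F F0 L, edge F F1 F0 L w0 = v
  · obtain ⟨w0, hw0⟩ := hE
    refine ⟨β (edge F F2 F0 L w0), fun w hw => ?_⟩
    have h1 := hstep w0 w hw0 hw
    generalize edge F F2 F0 L w0 = d0 at h1 ⊢
    generalize edge F F2 F0 L w = d at h1 ⊢
    induction h1 with
    | refl => rfl
    | tail _ hs ih =>
      rw [← ih]
      obtain ⟨e, e', rfl, rfl, h2, h3⟩ := hs
      rw [← h e h3, ← h e' (h2 ▸ h3), h2]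
  · push Not at hE
    exact ⟨Classical.arbitrary A, fun w hw => absurd hw (hE w)⟩

end Conn

section Exf

variable {F F1 F2 F0 K : Type*} [Field F] [Field F1] [Field F2] [Field F0]
  [Algebra F F1] [Algebra F F2] [Algebra F F0] [Algebra F1 F0] [Algebra F2 F0]
  [IsScalarTower F F1 F0] [IsScalarTower F F2 F0] [Field K] [Algebra F K]
  {Z : Type u} [Field Z] [Algebra F Z] [Algebra K Z] [IsScalarTower F K Z]

/-- the windings corollary applied to the winding vector of `h`. -/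
theorem exists_wind [CharZero F] [FiniteDimensional F K] [FiniteDimensional F Z]
    (hP : Patch F F1 F2 F0) {W : F0 → ℤ} (hW : IsWind W) {n : ℕ} [NeZero n] {ζ : F}
    (hζ : IsPrimitiveRoot ζ n) {S : Subgroup Zˣ} (hM : Moves F F1 F2 W n S)
    (hK : IsField (F1 ⊗[F] K)) (v : Pt F F1 Z)
    (ha : Function.Bijective (fun a : F1 ⊗[F] K =>
      Ideal.Quotient.mk v.asIdeal (tL F F1 (IsScalarTower.toAlgHom F K Z) a)))
    (hstep : ∀ e e' : Pt F F0 Z, edge F F1 F0 Z e = v → edge F F1 F0 Z e' = v →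
      Relation.ReflTransGen (Step F F1 F2 F0 Z v) (edge F F2 F0 Z e) (edge F F2 F0 Z e'))
    (j : Z →ₐ[F] F1 ⊗[F] K) (hj : ∀ k : K, j (algebraMap K Z k) = 1 ⊗ₜ k)
    (hv : ∀ x : F1 ⊗[F] Z, x ∈ v.asIdeal ↔ retr j x = 0)
    (h : K) (hh : h ≠ 0) (hq : (n : ℤ) ∣ W (algebraMap F F0 (Algebra.norm F h))) :
    ∃ f ∈ S, ∀ w : Pt F F0 K,
      (n : ℤ) ∣ wd W w (bc F F1 F0 K (j (f : Z))) - wd W w ((1 : F0) ⊗ₜ[F] h) := by
  classical
  haveI : Fintype (Pt F F0 Z) := Fintype.ofFinite _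
  obtain ⟨f, hfS, hf⟩ := windings_at hP hW hζ hM v
    (fun α β hαβ => conn_of_step v hstep α β hαβ)
    (fun e => wd W e ((1 : F0) ⊗ₜ[F] algebraMap K Z h)) (sum_wd_dvd hW v ha h hh n hq)
  refine ⟨f, hfS, fun w => ?_⟩
  have h1 := hf (edgeZ j w) (edge_edgeZ hK v j hv w)
  rw [wd_edgeZ_one W j hj, wd_edgeZ_one W j hj, hj, bc_tmul, map_one] at h1
  exact h1

end Exf

end P025H628
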