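import Vale.Agent.P025.R2.H628.OrdJ
import Vale.Agent.P025.R2.H628.Wnd
import Vale.Agent.P025.R2.H731.Sides
import Vale.Agent.P025.R2.H613.MovesOf

/-!
# P025, G-III: the core of (III') (helper628)
-/

set_option linter.style.haveILetI false
set_option linter.unusedSectionVars false

open scoped TensorProduct

namespace P025H628

open P025H373 P025H544 P025H613 P025H731 P025H492 P025H837 Vale.Agent.P019P

universe u

variable {C : Type u} [NontriviallyNormedField C] [IsUltrametricDist C] [CompleteSpace C]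
  [IsAlgClosed C]

/-- the winding number on `F0r C c`. -/
noncomputable def Wr (c : Cˣ) (x : F0r C c) : ℤ := wind C (show F0 C from x)

theorem isWind_Wr (c : Cˣ) : IsWind (Wr (C := C) c) := ⟨fun _ _ hx hy => wind_mul hx hy⟩

theorem dvd_finsum {ι : Sort*} (q : ℤ) (f : ι → ℤ) (h : ∀ i, q ∣ f i) : q ∣ ∑ᶠ i, f i :=
  finsum_induction (fun x => q ∣ x) (dvd_zero q) (fun _ _ => dvd_add) h

section One

variable {K : Type u} [Field K] [Algebra C K] [Algebra (RatFunc C) K]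
  [IsScalarTower C (RatFunc C) K] [FiniteDimensional (RatFunc C) K] [CFF C K]

/-- the winding of the norm of `h` modulo `q`. -/
theorem dvd_wr_norm (c : Cˣ) {h : K} (hh : h ≠ 0) (q : ℤ)
    (hq : ∀ P : Plk C K, down (RatFunc C) P ∈ Inn C (c : C) → q ∣ ord P h) :
    q ∣ Wr c (algebraMap (RatFunc C) (F0r C c) (Algebra.norm (RatFunc C) h)) := by
  let x : F1r C c ⊗[RatFunc C] K := 1 ⊗ₜ h
  have hx : IsUnit x := (IsUnit.mk0 h hh).map
    (Algebra.TensorProduct.includeRight : K →ₐ[RatFunc C] F1r C c ⊗[RatFunc C] K)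
  have h1 := (side1r c).finsum_sval hx
  have hn : Algebra.norm (F1r C c) x = algebraMap (RatFunc C) (F1r C c)
      (Algebra.norm (RatFunc C) h) := norm_one_tmul h
  have hn0 : Algebra.norm (F1r C c) x ≠ 0 := (hx.map (Algebra.norm (F1r C c))).ne_zero
  rw [finsum_v1r c hn0, hn, ← IsScalarTower.algebraMap_apply] at h1
  change q ∣ wind C _
  rw [← h1]
  refine dvd_finsum q _ fun P => dvd_finsum q _ fun hP => ?_
  rw [(side1r c).sval_tmul P hP hh]
  exact hq P hP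

/-- restriction of radii on `F1 ⊗ K`. -/
noncomputable def rK (c c' : Cˣ) (h : ‖(c : C)‖ ≤ ‖(c' : C)‖) (K : Type u) [Field K]
    [Algebra (RatFunc C) K] :
    F1r C c' ⊗[RatFunc C] K →ₐ[RatFunc C] F1r C c ⊗[RatFunc C] K :=
  Algebra.TensorProduct.map (res1 c c' h) (AlgHom.id (RatFunc C) K)

theorem rK_tmul (c c' : Cˣ) (h : ‖(c : C)‖ ≤ ‖(c' : C)‖) (a : F1r C c') (k : K) :
    rK c c' h K (a ⊗ₜ k) = (res1 c c' h a) ⊗ₜ k := by simp [rK]

variable (K) in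
/-- LONG ANNULUS (5.2): a unit on `|T| ≤ ‖c'‖` with divisible orders and windings becomes a `q`-th
power on the circle `‖c‖`. -/
def LA (q : ℕ) (c c' : Cˣ) (h : ‖(c : C)‖ ≤ ‖(c' : C)‖) : Prop :=
  ∀ y : (F1r C c' ⊗[RatFunc C] K)ˣ,
    (∀ P : Plk C K, down (RatFunc C) P ∈ Inn C (c' : C) →
      (q : ℤ) ∣ sval (v1r c') P (y : F1r C c' ⊗[RatFunc C] K)) →
    (∀ w : Pt (RatFunc C) (F0r C c') K,
      (q : ℤ) ∣ wd (Wr c') w (P025H544.bc (RatFunc C) (F1r C c') (F0r C c') K y)) →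
    ∃ u : (F0r C c ⊗[RatFunc C] K)ˣ,
      P025H544.bc (RatFunc C) (F1r C c) (F0r C c) K (rK c c' h K y) = (u : F0r C c ⊗[RatFunc C] K) ^ q

end One

section Two

variable {K Z : Type u} [Field K] [Algebra C K] [Algebra (RatFunc C) K]
  [IsScalarTower C (RatFunc C) K] [FiniteDimensional (RatFunc C) K] [CFF C K]
  [Field Z] [Algebra C Z] [Algebra (RatFunc C) Z] [Algebra K Z]
  [IsScalarTower C (RatFunc C) Z] [IsScalarTower (RatFunc C) K Z] [IsScalarTower C K Z]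
  [FiniteDimensional (RatFunc C) Z] [FiniteDimensional K Z] [CFF C Z]

/-- the divisor of the glued element. -/
theorem dvd_ord_glue (c : Cˣ) (q : ℕ) (y f : Z) (hy : y ≠ 0) (hf : f ≠ 0) (h : K) (hh : h ≠ 0)
    (hqf : ∀ Q : Plk C Z, (q : ℤ) ∣ ord Q f)
    (hqh : ∀ P : Plk C K, down (RatFunc C) P ∈ Inn C (c : C) → (q : ℤ) ∣ ord P h)
    (e : F1r C c ⊗[RatFunc C] Z) (he : e * e = e) (s : (F1r C c ⊗[RatFunc C] Z)ˣ)
    (h1 : (1 : F1r C c) ⊗ₜ[RatFunc C] y = (((1 : F1r C c) ⊗ₜ[RatFunc C] algebraMap K Z h) * e +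
      ((1 : F1r C c) ⊗ₜ[RatFunc C] f) * (1 - e)) * (s : F1r C c ⊗[RatFunc C] Z) ^ q)
    (t : (F2r C c ⊗[RatFunc C] Z)ˣ)
    (h2 : (1 : F2r C c) ⊗ₜ[RatFunc C] y = ((1 : F2r C c) ⊗ₜ[RatFunc C] f) *
      (t : F2r C c ⊗[RatFunc C] Z) ^ q) (Q : Plk C Z) : (q : ℤ) ∣ ord Q y := by
  have hh' : algebraMap K Z h ≠ 0 := by rwa [Ne, map_eq_zero]
  have unitR : ∀ (A : Type u) [Field A] [Algebra (RatFunc C) A] (z : Z), z ≠ 0 →
      IsUnit ((1 : A) ⊗ₜ[RatFunc C] z : A ⊗[RatFunc C] Z) := fun A _ _ z hz =>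
    (IsUnit.mk0 z hz).map
      (Algebra.TensorProduct.includeRight : Z →ₐ[RatFunc C] A ⊗[RatFunc C] Z)
  by_cases hQ : down (RatFunc C) Q ∈ Inn C (c : C)
  · have hS := side1r (C := C) c
    have hs : (s : F1r C c ⊗[RatFunc C] Z) ∉ (hS.pt Q hQ).asIdeal :=
      hS.not_mem_of_isUnit Q hQ s.isUnit
    have key : ∀ g : Z, g ≠ 0 → (q : ℤ) ∣ ord Q g →
        (1 : F1r C c) ⊗ₜ[RatFunc C] y - ((1 : F1r C c) ⊗ₜ[RatFunc C] g) *
          (s : F1r C c ⊗[RatFunc C] Z) ^ q ∈ (hS.pt Q hQ).asIdeal → (q : ℤ) ∣ ord Q y := by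
      intro g hg hqg hmem
      have h3 := hS.sval_congr Q hQ hmem
      rw [hS.sval_tmul Q hQ hy, hS.sval_mul_of_isUnit Q hQ (unitR _ g hg) (s.isUnit.pow q),
        hS.sval_tmul Q hQ hg, hS.sval_pow Q hQ hs] at h3
      rw [h3]
      exact dvd_add hqg (dvd_mul_right _ _)
    have hprime := (hS.pt Q hQ).isPrime
    have hor : e ∈ (hS.pt Q hQ).asIdeal ∨ (1 - e) ∈ (hS.pt Q hQ).asIdeal := by
      apply hprime.mem_or_mem
      have : e * (1 - e) = 0 := by rw [mul_sub, mul_one, he, sub_self]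
      rw [this]
      exact zero_mem _
    rcases hor with h3 | h3
    · refine key f hf (hqf Q) ?_
      rw [h1]
      have h4 : (((1 : F1r C c) ⊗ₜ[RatFunc C] algebraMap K Z h) * e +
          ((1 : F1r C c) ⊗ₜ[RatFunc C] f) * (1 - e)) * (s : F1r C c ⊗[RatFunc C] Z) ^ q -
          ((1 : F1r C c) ⊗ₜ[RatFunc C] f) * (s : F1r C c ⊗[RatFunc C] Z) ^ q =
          (((1 : F1r C c) ⊗ₜ[RatFunc C] algebraMap K Z h) - ((1 : F1r C c) ⊗ₜ[RatFunc C] f)) *
            (s : F1r C c ⊗[RatFunc C] Z) ^ q * e := by ring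
      rw [h4]
      exact Ideal.mul_mem_left _ _ h3
    · refine key (algebraMap K Z h) hh' ?_ ?_
      · rw [ord_algebraMap]
        refine Dvd.dvd.mul_left (hqh _ ?_) _
        rw [down_down]
        exact hQ
      · rw [h1]
        have h4 : (((1 : F1r C c) ⊗ₜ[RatFunc C] algebraMap K Z h) * e +
            ((1 : F1r C c) ⊗ₜ[RatFunc C] f) * (1 - e)) * (s : F1r C c ⊗[RatFunc C] Z) ^ q -
            ((1 : F1r C c) ⊗ₜ[RatFunc C] algebraMap K Z h) *
              (s : F1r C c ⊗[RatFunc C] Z) ^ q =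
            (((1 : F1r C c) ⊗ₜ[RatFunc C] f) -
              ((1 : F1r C c) ⊗ₜ[RatFunc C] algebraMap K Z h)) *
              (s : F1r C c ⊗[RatFunc C] Z) ^ q * (1 - e) := by ring
        rw [h4]
        exact Ideal.mul_mem_left _ _ h3
  · have hS := side2r (C := C) c
    have hQ' : down (RatFunc C) Q ∈ Out C (c : C) := hQ
    have ht : (t : F2r C c ⊗[RatFunc C] Z) ∉ (hS.pt Q hQ').asIdeal :=
      hS.not_mem_of_isUnit Q hQ' t.isUnit
    have h3 := congrArg (sval (v2r c) Q) h2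
    rw [hS.sval_tmul Q hQ' hy, hS.sval_mul_of_isUnit Q hQ' (unitR _ f hf) (t.isUnit.pow q),
      hS.sval_tmul Q hQ' hf, hS.sval_pow Q hQ' ht] at h3
    rw [h3]
    exact dvd_add (hqf Q) (dvd_mul_right _ _)

theorem Inn_mono {c c' : C} (h : ‖c‖ ≤ ‖c'‖) : Inn C c ⊆ Inn C c' :=
  fun _ ⟨a, ha, h'⟩ => ⟨a, ha.trans h, h'⟩

/-- **The core of (III')**: from a point `v` of `Z` at radius `c'` to `y ∈ Z` at radius `c`. -/
theorem core [CharZero C] (c c' : Cˣ) (hcc : ‖(c : C)‖ ≤ ‖(c' : C)‖) (q : ℕ) [NeZero q]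
    (hK : IsField (F1r C c' ⊗[RatFunc C] K)) (v : Pt (RatFunc C) (F1r C c') Z)
    (ha : Function.Bijective (fun a : F1r C c' ⊗[RatFunc C] K =>
      Ideal.Quotient.mk v.asIdeal
        (tL (RatFunc C) (F1r C c') (IsScalarTower.toAlgHom (RatFunc C) K Z) a)))
    (hstep : ∀ e e' : Pt (RatFunc C) (F0r C c') Z,
      edge (RatFunc C) (F1r C c') (F0r C c') Z e = v →
      edge (RatFunc C) (F1r C c') (F0r C c') Z e' = v →
      Relation.ReflTransGen (Step (RatFunc C) (F1r C c') (F2r C c') (F0r C c') Z v)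
        (edge (RatFunc C) (F2r C c') (F0r C c') Z e)
        (edge (RatFunc C) (F2r C c') (F0r C c') Z e'))
    (hM : Moves (RatFunc C) (F1r C c') (F2r C c') (Wr (C := C) c') q (divSub C Z q))
    (hLA : LA K q c c' hcc) (h : K) (hh : h ≠ 0)
    (hq : ∀ P : Plk C K, down (RatFunc C) P ∈ Inn C (c' : C) → (q : ℤ) ∣ ord P h) :
    ∃ j : Z →ₐ[RatFunc C] F1r C c ⊗[RatFunc C] K, (∀ k : K, j (algebraMap K Z k) = 1 ⊗ₜ k) ∧
      ∃ y : Z, y ≠ 0 ∧ (∀ Q : Plk C Z, (q : ℤ) ∣ ord Q y) ∧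
        ∃ w : (F1r C c ⊗[RatFunc C] K)ˣ, (1 : F1r C c) ⊗ₜ[RatFunc C] h =
          j y * (w : F1r C c ⊗[RatFunc C] K) ^ q := by
  haveI : CharZero (RatFunc C) :=
    charZero_of_injective_algebraMap (algebraMap C (RatFunc C)).injective
  obtain ⟨ζ0, hζ0⟩ : ∃ ζ : C, IsPrimitiveRoot ζ q := by
    haveI : NeZero (q : C) := ⟨Nat.cast_ne_zero.2 (NeZero.ne q)⟩
    exact HasEnoughRootsOfUnity.exists_primitiveRoot C q
  have hζ : IsPrimitiveRoot (algebraMap C (RatFunc C) ζ0) q :=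
    hζ0.map_of_injective (algebraMap C (RatFunc C)).injective
  obtain ⟨j', hj', hv⟩ := exists_retraction v ha
  obtain ⟨f, hfS, hf⟩ := exists_wind (patch c') (isWind_Wr c') hζ hM hK v ha hstep j' hj' hv h hh
    (dvd_wr_norm c' hh q hq)
  rw [mem_divSub] at hfS
  -- the unit `h / j' f`
  have hfu : IsUnit (j' (f : Z)) := f.isUnit.map j'
  let fU : (F1r C c' ⊗[RatFunc C] K)ˣ := hfu.unit
  have hfU : (fU : F1r C c' ⊗[RatFunc C] K) = j' (f : Z) := rfl
  let hU : (F1r C c' ⊗[RatFunc C] K)ˣ := ((IsUnit.mk0 h hh).map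
    (Algebra.TensorProduct.includeRight :
      K →ₐ[RatFunc C] F1r C c' ⊗[RatFunc C] K)).unit
  have hhU : (hU : F1r C c' ⊗[RatFunc C] K) = 1 ⊗ₜ h := rfl
  let y1 : (F1r C c' ⊗[RatFunc C] K)ˣ := hU * fU⁻¹
  have hy1 : (y1 : F1r C c' ⊗[RatFunc C] K) * j' (f : Z) = 1 ⊗ₜ h := by
    rw [← hfU, ← hhU, ← Units.val_mul]
    simp [y1]
  have hS := side1r (C := C) c'
  obtain ⟨u, hu⟩ := hLA y1 (by
    intro P hP
    have h1 := hS.sval_mul_of_isUnit P hP y1.isUnit hfu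
    rw [hy1, hS.sval_tmul P hP hh] at h1
    have h2 : (q : ℤ) ∣ sval (v1r c') P (j' (f : Z)) :=
      dvd_val_j P (hS.loc P hP) j' hj' q (f : Z) hfS
    have h3 : sval (v1r c') P (y1 : F1r C c' ⊗[RatFunc C] K) =
        ord P h - sval (v1r c') P (j' (f : Z)) := by omega
    rw [h3]
    exact dvd_sub (hq P hP) h2) (by
    intro w
    have hb : ∀ x : F1r C c' ⊗[RatFunc C] K, IsUnit x →
        IsUnit (P025H544.bc (RatFunc C) (F1r C c') (F0r C c') K x) := fun x hx => hx.map _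
    have h1 := wd_mul (isWind_Wr (C := C) c') w (hb _ y1.isUnit) (hb _ hfu)
    rw [← map_mul, hy1, P025H544.bc_tmul, map_one] at h1
    have h2 := hf w
    have h3 : wd (Wr (C := C) c') w (P025H544.bc (RatFunc C) (F1r C c') (F0r C c') K y1) =
        -(wd (Wr (C := C) c') w (P025H544.bc (RatFunc C) (F1r C c') (F0r C c') K (j' (f : Z))) -
          wd (Wr (C := C) c') w ((1 : F0r C c') ⊗ₜ[RatFunc C] h)) := by
      rw [h1]; ring
    rw [h3]
    exact (dvd_neg).2 h2)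
  let j : Z →ₐ[RatFunc C] F1r C c ⊗[RatFunc C] K := (rK c c' hcc K).comp j'
  have hj : ∀ k : K, j (algebraMap K Z k) = 1 ⊗ₜ k := by
    intro k
    change rK c c' hcc K (j' (algebraMap K Z k)) = _
    rw [hj', rK_tmul, map_one]
  haveI : CharZero K := charZero_of_injective_algebraMap (algebraMap C K).injective
  haveI : Algebra.IsSeparable K Z := inferInstance
  haveI : Algebra.IsAlgebraic (RatFunc C) Z := Algebra.IsAlgebraic.of_finite _ _
  obtain ⟨y, hy0, ⟨w, hw⟩, ⟨e, he, s, hs⟩, ⟨t, ht⟩⟩ :=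
    glue (patch c) q j hj h (f : Z) hh f.ne_zero u (by
      have h1 := congrArg (fun x => P025H544.bc (RatFunc C) (F1r C c) (F0r C c) K (rK c c' hcc K x)) hy1
      simp only [map_mul] at h1
      rw [rK_tmul, map_one, P025H544.bc_tmul, map_one, hu, mul_comm] at h1
      exact h1.symm)
  refine ⟨j, hj, y, hy0, ?_, w, hw⟩
  exact dvd_ord_glue c q y (f : Z) hy0 f.ne_zero h hh hfS
    (fun P hP => hq P (Inn_mono hcc hP)) e he s hs t ht

end Two

end P025H628
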