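import Vale.Agent.P025.R2.H492.Ext5

/-!
# P025: one unramified Kummer extension (helper628)
-/

set_option linter.style.haveILetI false
set_option linter.unusedSectionVars false

open IntermediateField Polynomial Vale.Agent.P019P P025H492

namespace P025H628

universe u

section Group

variable {C Z L : Type*} [Field C] [Field Z] [Field L] [Algebra C Z] [Algebra C L] [Algebra Z L]
  [IsScalarTower C Z L] [FiniteDimensional Z L]

/-- automorphisms multiply a `q`-th root by constants. -/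
theorem exists_mul_root {q : ℕ} (hq : q ≠ 0) {ζ : C} (hζ : IsPrimitiveRoot ζ q) {z : L}
    (hz0 : z ≠ 0) {y : Z} (hz : z ^ q = algebraMap Z L y) (σ : L ≃ₐ[Z] L) :
    ∃ c : C, σ z = algebraMap C L c * z := by
  haveI : NeZero q := ⟨hq⟩
  have h1 : (σ z * z⁻¹) ^ q = 1 := by
    rw [mul_pow, inv_pow, ← map_pow, hz, AlgEquiv.commutes, ← hz,
      mul_inv_cancel₀ (pow_ne_zero _ hz0)]
  have hζL := hζ.map_of_injective (algebraMap C L).injective
  obtain ⟨i, -, hi⟩ := hζL.eq_pow_of_pow_eq_one h1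
  refine ⟨ζ ^ i, ?_⟩
  rw [map_pow, hi, mul_assoc, inv_mul_cancel₀ hz0, mul_one]

/-- the Kummer character. -/
noncomputable def kumHom {q : ℕ} (hq : q ≠ 0) {ζ : C} (hζ : IsPrimitiveRoot ζ q) {z : L}
    (hz0 : z ≠ 0) {y : Z} (hz : z ^ q = algebraMap Z L y) : (L ≃ₐ[Z] L) →* rootsOfUnity q L where
  toFun σ := ⟨Units.mk0 (σ z * z⁻¹) (mul_ne_zero (by simpa using hz0) (inv_ne_zero hz0)), by
    rw [mem_rootsOfUnity]
    refine Units.ext ?_
    rw [Units.val_pow_eq_pow_val, Units.val_mk0, mul_pow, inv_pow, ← map_pow, hz,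
      AlgEquiv.commutes, ← hz, mul_inv_cancel₀ (pow_ne_zero _ hz0), Units.val_one]⟩
  map_one' := by
    refine Subtype.ext (Units.ext ?_)
    change (1 : L ≃ₐ[Z] L) z * z⁻¹ = 1
    rw [AlgEquiv.one_apply, mul_inv_cancel₀ hz0]
  map_mul' σ τ := by
    refine Subtype.ext (Units.ext ?_)
    change (σ * τ) z * z⁻¹ = (σ z * z⁻¹) * (τ z * z⁻¹)
    obtain ⟨c, hc⟩ := exists_mul_root hq hζ hz0 hz τ
    rw [AlgEquiv.mul_apply, hc, map_mul, IsScalarTower.algebraMap_apply C Z L, AlgEquiv.commutes]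
    field_simp

theorem kumHom_injective {q : ℕ} (hq : q ≠ 0) {ζ : C} (hζ : IsPrimitiveRoot ζ q) {z : L}
    (hz0 : z ≠ 0) {y : Z} (hz : z ^ q = algebraMap Z L y) (hL : adjoin Z {z} = ⊤) :
    Function.Injective (kumHom hq hζ hz0 hz) := by
  rw [injective_iff_map_eq_one]
  intro σ hσ
  have h1 : σ z * z⁻¹ = 1 := congrArg (fun u : rootsOfUnity q L => ((u : Lˣ) : L)) hσ
  have h2 : σ z = z := by
    have h3 := congrArg (· * z) h1
    simp only [mul_assoc, inv_mul_cancel₀ hz0, mul_one, one_mul] at h3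
    exact h3
  have h3 : adjoin Z {z} ≤ fixedField (Subgroup.zpowers σ) := by
    rw [adjoin_le_iff]
    intro x hx
    rw [Set.mem_singleton_iff] at hx
    subst hx
    show x ∈ fixedField (Subgroup.zpowers σ)
    rw [mem_fixedField_iff]
    rintro τ ⟨m, rfl⟩
    have h4 : σ ∈ MulAction.stabilizer (L ≃ₐ[Z] L) x := h2
    exact (zpow_mem h4 m : σ ^ m ∈ MulAction.stabilizer (L ≃ₐ[Z] L) x)
  rw [hL, top_le_iff] at h3
  refine AlgEquiv.ext fun x => ?_
  have h4 : x ∈ fixedField (Subgroup.zpowers σ) := h3 ▸ mem_top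
  rw [mem_fixedField_iff] at h4
  exact h4 σ (Subgroup.mem_zpowers σ)

end Group

/-- unramified Kummer extensions exist. -/
theorem exists_kum {C Z : Type u} [Field C] [CharZero C] [Field Z] [Algebra C Z] [CFF C Z]
    {q : ℕ} (hq : q ≠ 0) (y : Z) (hy0 : y ≠ 0) (hy : ∀ P : Plk C Z, (q : ℤ) ∣ ord P y) :
    ∃ (L : Type u) (_ : Field L) (_ : Algebra C L) (_ : Algebra Z L) (_ : IsScalarTower C Z L)
      (_ : CFF C L) (_ : FiniteDimensional Z L), IsGalois Z L ∧
      Group.IsSolvable (L ≃ₐ[Z] L) ∧ IsUnr C Z L ∧ Module.finrank Z L ∣ q ∧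
      ∃ z : L, z ^ q = algebraMap Z L y := by
  haveI hac : IsAlgClosed C := CFF.ac (k := C) (F := Z)
  haveI : NeZero q := ⟨hq⟩
  haveI : NeZero (q : C) := ⟨Nat.cast_ne_zero.2 hq⟩
  obtain ⟨x, hx⟩ := IsAlgClosed.exists_pow_nat_eq (algebraMap Z (AlgebraicClosure Z) y)
    (Nat.pos_of_ne_zero hq)
  haveI : FiniteDimensional Z (adjoin Z {x}) :=
    adjoin.finiteDimensional (Algebra.IsAlgebraic.isAlgebraic x).isIntegral
  let L : IntermediateField Z (AlgebraicClosure Z) := adjoin Z {x}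
  haveI : FiniteDimensional Z L := inferInstanceAs (FiniteDimensional Z (adjoin Z {x}))
  letI : Algebra C L := ((algebraMap Z L).comp (algebraMap C Z)).toAlgebra
  haveI : IsScalarTower C Z L := IsScalarTower.of_algebraMap_eq fun _ => rfl
  haveI : CFF C L := P025H492.cff_of_finite (K := Z)
  let z : L := ⟨x, mem_adjoin_simple_self Z x⟩
  have hz : z ^ q = algebraMap Z L y := Subtype.ext hx
  have hz0 : z ≠ 0 := by
    intro h
    rw [h, zero_pow hq] at hz
    exact hy0 ((_root_.map_eq_zero _).1 hz.symm)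
  have hL : adjoin Z {z} = ⊤ := by
    rw [eq_top_iff]
    intro w _
    have h1 : (adjoin Z {z}).map L.val = adjoin Z {x} := by
      rw [adjoin_map, Set.image_singleton]
      rfl
    have h2 : (w : AlgebraicClosure Z) ∈ (adjoin Z {z}).map L.val := by
      rw [h1]
      exact w.2
    obtain ⟨w', hw', hww⟩ := h2
    have h3 : w' = w := Subtype.ext hww
    rw [← h3]
    exact hw'
  obtain ⟨ζ, hζ⟩ := HasEnoughRootsOfUnity.exists_primitiveRoot C q
  have hqC : (q : C) ≠ 0 := Nat.cast_ne_zero.2 hq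
  haveI hg : IsGalois Z L := isGalois_radicals (k := C) hL fun w hw => by
    rw [Set.mem_singleton_iff] at hw
    exact ⟨q, y, hqC, hw ▸ hz⟩
  have hu : IsUnr C Z L := isUnr_kummer hqC hz hL hy
  have hinj := kumHom_injective hq hζ hz0 hz hL
  refine ⟨L, inferInstance, inferInstance, inferInstance, inferInstance, inferInstance,
    inferInstance, hg, Group.isSolvable_of_isSolvable_injective hinj, hu, ?_, z, hz⟩
  have h1 := Subgroup.card_dvd_of_injective _ hinj
  have h2 : Nat.card (rootsOfUnity q L) = q :=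
    (hζ.map_of_injective (algebraMap C L).injective).card_rootsOfUnity
  rw [h2, IsGalois.card_aut_eq_finrank] at h1
  exact h1

end P025H628
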