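import Vale.Agent.P025.R2.H628.Core
import Vale.Agent.P025.R2.H469.LongCharts
import Vale.Agent.P025.R2.H613.SideMoves
import Vale.Agent.P025.R2.H731.OnD
import Vale.Agent.P025.R2.H552.LauK

/-!
# P025, G-III: the inputs of `core` from the charts (helper628)
-/

set_option linter.style.haveILetI false
set_option linter.unusedSectionVars false

open scoped TensorProduct

namespace P025H628

open P025H373 P025H544 P025H613 P025H731 P025H492 P025H210 P025H450 Vale.Agent.P019P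

universe u

variable {C : Type u} [NontriviallyNormedField C] [IsUltrametricDist C] [CompleteSpace C]
  [IsAlgClosed C]

section OnD

variable {K : Type u} [Field K] [Algebra C K] [Algebra (RatFunc C) K]
  [IsScalarTower C (RatFunc C) K] [FiniteDimensional (RatFunc C) K] [CFF C K]

/-- every component of `|T| > ‖c‖` contains a pole of `T`. -/
theorem exists_onD (c : Cˣ) (d : Pt (RatFunc C) (F2r C c) K) :
    ∃ P : Plk C K, ord P (TT C K) < 0 ∧ OnD C c P d := by
  obtain ⟨p, hp⟩ := exists_place_inf (C := C)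
  have hpO : p ∈ Out C (c : C) := by
    rintro ⟨a, -, ha⟩
    exact not_inf_of_fin ha hp
  obtain ⟨P, h, hd⟩ := (side2r c).exists_pt hpO d
  obtain ⟨s, -, hs⟩ := exists_unif P
  obtain ⟨φ, -, hφ⟩ := P025H552.exists_lau P s hs
  refine ⟨P, ?_, ?_⟩
  · rw [TT, ord_algebraMap, h]
    have h2 : (0 : ℤ) < ram (RatFunc C) P := by exact_mod_cast ram_pos P
    exact mul_neg_of_pos_of_neg h2 hp
  · rw [← hd]
    exact onD_pt _ φ hφ

end OnD

section LA

variable [CharZero C] {K : Type u} [Field K] [Algebra C K] [Algebra (RatFunc C) K]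
  [IsScalarTower C (RatFunc C) K] [FiniteDimensional (RatFunc C) K] [CFF C K]

/-- (LA) from the charts. -/
theorem la_of_charts {q : ℕ} (hq : q ≠ 0) (D : Charts C K) (c0 c c1 : Cˣ)
    (h0 : D.r0 ≤ ‖(c0 : C)‖) (h0c : ‖(c0 : C)‖ ≤ ‖(c : C)‖) (hcc : ‖(c : C)‖ ≤ ‖(c1 : C)‖)
    (h1 : ∀ P : Pole C K, ‖(c0 : C)‖ < ‖(c : C)‖ * (‖(q : C)‖ ^ 2) ^ P.N)
    (h2 : ∀ P : Pole C K, ‖(c : C)‖ ≤ ‖(c1 : C)‖ * (‖(q : C)‖ ^ 2) ^ P.N) :
    LA K q c c1 hcc := by
  intro y hord hW
  have hS := side1r (C := C) c1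
  have hqC : (q : C) ≠ 0 := Nat.cast_ne_zero.2 hq
  obtain ⟨z, hz⟩ := P025H469.long_charts hqC D c0 c c1 h0 h0c hcc h1 h2 y (by
    intro P a hPa _ ha1
    have hP : down (RatFunc C) P ∈ Inn C (c1 : C) := down_mem_Inn.2 ⟨a, ha1, hPa⟩
    exact ⟨sval (v1r c1) P, fun x z hx hz => hS.sval_mul_of_isUnit P hP hx hz,
      fun x hx => hS.sval_tmul P hP hx, hord P hP⟩) hW
  have hz' : P025H544.bc (RatFunc C) (F1r C c) (F0r C c) K
      (rK c c1 hcc K (y : F1r C c1 ⊗[RatFunc C] K)) = z ^ q := hz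
  have hu : IsUnit z := by
    have h3 : IsUnit (z ^ q) := by
      rw [← hz']
      exact (y.isUnit.map (rK c c1 hcc K)).map _
    exact (isUnit_pow_iff hq).1 h3
  exact ⟨hu.unit, hz'⟩

end LA

end P025H628
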