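import Vale.Agent.P025.R2.H628.Glue
import Vale.Agent.P025.R2.H613.Sums

/-!
# P025, G-III: points of `Z` with residue ring `F1 ⊗ K` and their edges (helper628)
-/

set_option linter.style.haveILetI false
set_option linter.unusedSectionVars false

open scoped TensorProduct

namespace P025H628

open P025H544 P025H613

section Ret

variable {F F1 F0 K Z : Type*} [Field F] [Field F1] [Field F0] [Field K] [Field Z]
  [Algebra F F1] [Algebra F F0] [Algebra F1 F0] [IsScalarTower F F1 F0]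
  [Algebra F K] [Algebra F Z] [Algebra K Z] [IsScalarTower F K Z]

/-- `retr` as an `F1`-algebra homomorphism. -/
noncomputable def retrA (j : Z →ₐ[F] F1 ⊗[F] K) : F1 ⊗[F] Z →ₐ[F1] F1 ⊗[F] K :=
  Algebra.TensorProduct.lift (Algebra.TensorProduct.includeLeft : F1 →ₐ[F1] F1 ⊗[F] K) j
    (fun _ _ => Commute.all _ _)

theorem retrA_tmul (j : Z →ₐ[F] F1 ⊗[F] K) (r : F1) (z : Z) :
    retrA j (r ⊗ₜ z) = (r ⊗ₜ 1) * j z := by simp [retrA]

theorem retrA_eq (j : Z →ₐ[F] F1 ⊗[F] K) (x : F1 ⊗[F] Z) : retrA j x = retr j x := by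
  induction x with
  | zero => simp
  | add x y hx hy => rw [map_add, map_add, hx, hy]
  | tmul r z => rw [retrA_tmul, retr_tmul]

/-- A point with residue ring `F1 ⊗ K` gives a retraction. -/
theorem exists_retraction (v : Pt F F1 Z) (ha : Function.Bijective (fun a : F1 ⊗[F] K =>
      Ideal.Quotient.mk v.asIdeal (tL F F1 (IsScalarTower.toAlgHom F K Z) a))) :
    ∃ j : Z →ₐ[F] F1 ⊗[F] K, (∀ k : K, j (algebraMap K Z k) = 1 ⊗ₜ k) ∧
      ∀ x : F1 ⊗[F] Z, x ∈ v.asIdeal ↔ retr j x = 0 := by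
  let θ : F1 ⊗[F] K ≃ₐ[F1] (F1 ⊗[F] Z) ⧸ v.asIdeal :=
    AlgEquiv.ofBijective ((Ideal.Quotient.mkₐ F1 v.asIdeal).comp
      (tL F F1 (IsScalarTower.toAlgHom F K Z))) ha
  have hθ : ∀ a, θ a = Ideal.Quotient.mk v.asIdeal (tL F F1 (IsScalarTower.toAlgHom F K Z) a) :=
    fun _ => rfl
  let j : Z →ₐ[F] F1 ⊗[F] K := ((θ.symm : _ →ₐ[F1] _).restrictScalars F).comp
    (((Ideal.Quotient.mkₐ F1 v.asIdeal).restrictScalars F).comp
      (Algebra.TensorProduct.includeRight : Z →ₐ[F] F1 ⊗[F] Z))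
  have hj : ∀ z, j z = θ.symm (Ideal.Quotient.mk v.asIdeal (1 ⊗ₜ z)) := fun _ => rfl
  have hr : ∀ x, retr j x = θ.symm (Ideal.Quotient.mk v.asIdeal x) := by
    intro x
    induction x with
    | zero => simp
    | add x y hx hy => rw [map_add, hx, hy, map_add, map_add]
    | tmul r z =>
      rw [retr_tmul, hj]
      have h1 : (r ⊗ₜ[F] (1 : K) : F1 ⊗[F] K) = θ.symm (Ideal.Quotient.mk v.asIdeal (r ⊗ₜ 1)) := by
        rw [AlgEquiv.eq_symm_apply, hθ, tL_tmul, map_one]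
      rw [h1, ← map_mul, ← map_mul]
      simp
  refine ⟨j, fun k => ?_, fun x => ?_⟩
  · rw [hj, AlgEquiv.symm_apply_eq, hθ, tL_tmul]
    rfl
  · rw [hr, EmbeddingLike.map_eq_zero_iff, Ideal.Quotient.eq_zero_iff_mem]

theorem retr_bc (j : Z →ₐ[F] F1 ⊗[F] K) (x : F1 ⊗[F] Z) :
    retr ((bc F F1 F0 K).comp j) (bc F F1 F0 Z x) = bc F F1 F0 K (retr j x) := by
  induction x with
  | zero => simp
  | add x y hx hy => rw [map_add, map_add, hx, hy, map_add, map_add]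
  | tmul r z => simp

theorem retr_bc_hj (j : Z →ₐ[F] F1 ⊗[F] K) (hj : ∀ k : K, j (algebraMap K Z k) = 1 ⊗ₜ k) (k : K) :
    ((bc F F1 F0 K).comp j) (algebraMap K Z k) = 1 ⊗ₜ k := by
  simp [hj]

/-- the edge of `Z` at `v` above the edge `w` of `K`. -/
noncomputable def edgeZ (j : Z →ₐ[F] F1 ⊗[F] K) (w : Pt F F0 K) : Pt F F0 Z :=
  PrimeSpectrum.comap (retr ((bc F F1 F0 K).comp j)).toRingHom w

theorem edge_edgeZ (hK : IsField (F1 ⊗[F] K)) (v : Pt F F1 Z) (j : Z →ₐ[F] F1 ⊗[F] K)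
    (hv : ∀ x : F1 ⊗[F] Z, x ∈ v.asIdeal ↔ retr j x = 0) (w : Pt F F0 K) :
    edge F F1 F0 Z (edgeZ j w) = v := by
  apply PrimeSpectrum.ext
  ext x
  have h1 : x ∈ (edge F F1 F0 Z (edgeZ j w)).asIdeal ↔
      bc F F1 F0 K (retr j x) ∈ w.asIdeal := by
    rw [← retr_bc]
    rfl
  rw [h1, hv]
  constructor
  · intro h
    by_contra hne
    obtain ⟨y, hy⟩ := hK.mul_inv_cancel hne
    apply w.isPrime.ne_top
    rw [Ideal.eq_top_iff_one, ← map_one (bc F F1 F0 K), ← hy, map_mul]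
    exact Ideal.mul_mem_right _ _ h
  · intro h
    rw [h, map_zero]
    exact zero_mem _

theorem wd_edgeZ (W : F0 → ℤ) (j : Z →ₐ[F] F1 ⊗[F] K)
    (hj : ∀ k : K, j (algebraMap K Z k) = 1 ⊗ₜ k) (w : Pt F F0 K) (x : F0 ⊗[F] Z) :
    wd W (edgeZ j w) x = wd W w (retr ((bc F F1 F0 K).comp j) x) := by
  let j0 := (bc F F1 F0 K).comp j
  have hj0 : ∀ k : K, j0 (algebraMap K Z k) = 1 ⊗ₜ k := retr_bc_hj j hj
  have hsurj : Function.Surjective (retrA j0) := fun a =>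
    ⟨tL F F0 (IsScalarTower.toAlgHom F K Z) a, by rw [retrA_eq, retr_comp j0 hj0]⟩
  let φ : (F0 ⊗[F] Z) ⧸ (edgeZ j w).asIdeal →ₐ[F0] (F0 ⊗[F] K) ⧸ w.asIdeal :=
    Ideal.quotientMapₐ w.asIdeal (retrA j0) (by
      intro y hy
      rw [Ideal.mem_comap, retrA_eq]
      exact hy)
  have hφ : ∀ y, φ (Ideal.Quotient.mk _ y) = Ideal.Quotient.mk _ (retrA j0 y) := fun _ => rfl
  have hbij : Function.Bijective φ := by
    constructor
    · rw [injective_iff_map_eq_zero]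
      intro a ha
      obtain ⟨y, rfl⟩ := Ideal.Quotient.mk_surjective a
      rw [hφ, Ideal.Quotient.eq_zero_iff_mem, retrA_eq] at ha
      rw [Ideal.Quotient.eq_zero_iff_mem]
      exact ha
    · intro b
      obtain ⟨y, rfl⟩ := Ideal.Quotient.mk_surjective b
      obtain ⟨z, rfl⟩ := hsurj y
      exact ⟨Ideal.Quotient.mk _ z, hφ z⟩
  rw [wd, wd, ← Algebra.norm_eq_of_algEquiv (AlgEquiv.ofBijective φ hbij)]
  congr 2

theorem wd_edgeZ_one (W : F0 → ℤ) (j : Z →ₐ[F] F1 ⊗[F] K)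
    (hj : ∀ k : K, j (algebraMap K Z k) = 1 ⊗ₜ k) (w : Pt F F0 K) (f : Z) :
    wd W (edgeZ j w) (1 ⊗ₜ f) = wd W w (bc F F1 F0 K (j f)) := by
  rw [wd_edgeZ W j hj, retr_tmul]
  congr 1
  rw [← Algebra.TensorProduct.one_def, one_mul]
  rfl

/-- the winding vector of `h` at the edges of `v` has sum zero modulo `q`. -/
theorem sum_wd_dvd [FiniteDimensional F K] [FiniteDimensional F Z] [Algebra.IsSeparable F Z]
    {W : F0 → ℤ} (hW : IsWind W) [Fintype (Pt F F0 Z)] [DecidableEq (Pt F F1 Z)] (v : Pt F F1 Z)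
    (ha : Function.Bijective (fun a : F1 ⊗[F] K =>
      Ideal.Quotient.mk v.asIdeal (tL F F1 (IsScalarTower.toAlgHom F K Z) a))) (h : K) (hh : h ≠ 0)
    (q : ℤ) (hq : q ∣ W (algebraMap F F0 (Algebra.norm F h))) :
    q ∣ ∑ e : Pt F F0 Z with edge F F1 F0 Z e = v,
      wd W e ((1 : F0) ⊗ₜ[F] algebraMap K Z h) := by
  have hu : IsUnit ((1 : F1) ⊗ₜ[F] algebraMap K Z h : F1 ⊗[F] Z) := by
    have : IsUnit (algebraMap K Z h) := (IsUnit.mk0 h hh).map (algebraMap K Z)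
    exact this.map (Algebra.TensorProduct.includeRight : Z →ₐ[F] F1 ⊗[F] Z)
  have h1 := sum_edge (F := F) (F1 := F1) (F0 := F0) (K := Z) hW v hu
  have h2 : ∀ e : Pt F F0 Z, wd W e (bc F F1 F0 Z ((1 : F1) ⊗ₜ[F] algebraMap K Z h)) =
      wd W e ((1 : F0) ⊗ₜ[F] algebraMap K Z h) := by
    intro e
    rw [bc_tmul, map_one]
  simp only [h2] at h1
  rw [h1]
  let θ : F1 ⊗[F] K ≃ₐ[F1] (F1 ⊗[F] Z) ⧸ v.asIdeal :=
    AlgEquiv.ofBijective ((Ideal.Quotient.mkₐ F1 v.asIdeal).comp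
      (tL F F1 (IsScalarTower.toAlgHom F K Z))) ha
  have hθ : θ (1 ⊗ₜ h) = Ideal.Quotient.mk v.asIdeal ((1 : F1) ⊗ₜ[F] algebraMap K Z h) := by
    change Ideal.Quotient.mk v.asIdeal (tL F F1 (IsScalarTower.toAlgHom F K Z) (1 ⊗ₜ h)) = _
    rw [tL_tmul]
    rfl
  rw [← hθ, Algebra.norm_eq_of_algEquiv, norm_one_tmul, ← IsScalarTower.algebraMap_apply]
  exact hq

end Ret

end P025H628
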