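import Vale.Agent.P025.R2.H492.Ext5
import Vale.Agent.P025.R2.H731.Val2
import Vale.Agent.P025.R2.H628.Ret

/-!
# P025, G-III: orders of `j f` (helper628)
-/

set_option linter.style.haveILetI false
set_option linter.unusedSectionVars false

open scoped TensorProduct

namespace P025H628

open P025H544 P025H731 Vale.Agent.P019P P025H492

section Place

variable {C Z : Type*} [Field C] [Field Z] [Algebra C Z] [CFF C Z]

/-- a discrete valuation trivial on the constants is a multiple of the order at a place. -/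
theorem exists_place_of_dv (g : Z → ℤ) (hg : DV g) (hC : ∀ c : C, 0 ≤ g (algebraMap C Z c))
    (hne : ∃ z, g z < 0) : ∃ (Q : Plk C Z) (e : ℤ), ∀ z, g z = e * ord Q z := by
  let O : ValuationSubring Z :=
    { carrier := {z | z = 0 ∨ 0 ≤ g z}
      mul_mem' := by
        intro a b ha hb
        have := Ge.mul (m := 0) (n := 0) hg ha hb
        exact this
      one_mem' := Or.inr (by rw [hg.one])
      add_mem' := by
        intro a b ha hb
        exact Ge.add (n := 0) hg ha hb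
      zero_mem' := Or.inl rfl
      neg_mem' := by
        intro a ha
        exact Ge.neg (n := 0) hg ha
      mem_or_inv_mem' := by
        intro a
        rcases le_or_gt 0 (g a) with h | h
        · exact Or.inl (Or.inr h)
        · refine Or.inr (Or.inr ?_)
          rw [hg.inv]
          omega }
  have hO : ∀ z, z ∈ O ↔ (z = 0 ∨ 0 ≤ g z) := fun _ => Iff.rfl
  obtain ⟨z0, hz0⟩ := hne
  let Q : Plk C Z := ⟨O, fun a => (hO _).2 (Or.inr (hC a)), fun htop => by
    have : z0 ∈ O := by rw [htop]; trivial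
    rcases (hO _).1 this with h | h
    · rw [h, hg.zero] at hz0
      exact lt_irrefl _ hz0
    · omega⟩
  obtain ⟨π, hπ0, hπ⟩ := exists_unif Q
  have key : ∀ z, z ≠ 0 → ord Q z = 0 → g z = 0 := by
    intro z hz h0
    have h1 : z ∈ Q.1 := (mem_iff_ord Q z).2 (Or.inr h0.ge)
    have h2 : z⁻¹ ∈ Q.1 := (mem_iff_ord Q _).2 (Or.inr (by rw [ord_inv, h0]; rfl))
    have h3 := ((hO _).1 h1).resolve_left hz
    have h4 := ((hO _).1 h2).resolve_left (inv_ne_zero hz)
    rw [hg.inv] at h4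
    omega
  refine ⟨Q, g π, fun z => ?_⟩
  by_cases hz : z = 0
  · rw [hz, hg.zero, ord_zero, mul_zero]
  have h1 : g (z * (π ^ (ord Q z))⁻¹) = 0 := by
    apply key
    · exact mul_ne_zero hz (inv_ne_zero (zpow_ne_zero _ hπ0))
    · rw [Vale.Agent.P019P.ord_mul Q hz (inv_ne_zero (zpow_ne_zero _ hπ0)), ord_inv, ord_zpow, hπ]
      ring
  have h2 : ∀ n : ℤ, g (π ^ n) = n * g π := by
    intro n
    rcases n with n | n
    · rw [Int.ofNat_eq_natCast, zpow_natCast, hg.pow]
    · rw [zpow_negSucc, hg.inv, hg.pow]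
      push_cast [Int.negSucc_eq]
      ring
  rw [hg.mul _ _ hz (inv_ne_zero (zpow_ne_zero _ hπ0)), hg.inv, h2] at h1
  linarith

end Place

section ValJ

variable {F F₁ K : Type*} [Field F] [Field F₁] [Field K] [Algebra F F₁] [Algebra F K]
  [FiniteDimensional F K] {w : F → ℤ} {w₁ : F₁ → ℤ} {u : K → ℤ} {e : ℤ}

theorem _root_.P025H731.Loc.hasVal_add (h : Loc w w₁ u e) {x y : F₁ ⊗[F] K} {m n k : ℤ}
    (hx : HasVal w₁ u x m) (hy : HasVal w₁ u y n) (hxy : HasVal w₁ u (x + y) k) :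
    min m n ≤ k := by
  obtain ⟨M₁, h1⟩ := hx
  obtain ⟨M₂, h2⟩ := hy
  obtain ⟨M₃, h3⟩ := hxy
  let M := max M₁ (max M₂ M₃)
  obtain ⟨a, ha⟩ := h.exists_app x M
  obtain ⟨b, hb⟩ := h.exists_app y M
  obtain ⟨ha0, ham⟩ := h1 a (ha.mono (le_max_left _ _))
  obtain ⟨hb0, hbn⟩ := h2 b (hb.mono ((le_max_left _ _).trans (le_max_right _ _)))
  obtain ⟨hab0, habk⟩ := h3 (a + b)
    ((App.add h.dw₁ ha hb).mono ((le_max_right _ _).trans (le_max_right _ _)))
  rw [← ham, ← hbn, ← habk]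
  exact h.du.add _ _ ha0 hb0 hab0

theorem _root_.P025H731.Loc.val_add (h : Loc w w₁ u e) {x y : F₁ ⊗[F] K} (hx : x ∉ nul h)
    (hy : y ∉ nul h) (hxy : x + y ∉ nul h) :
    min (val w₁ u x) (val w₁ u y) ≤ val w₁ u (x + y) :=
  h.hasVal_add (h.hasVal_val hx) (h.hasVal_val hy) (h.hasVal_val hxy)

theorem _root_.P025H731.Loc.val_zero (h : Loc w w₁ u e) : val w₁ u (0 : F₁ ⊗[F] K) = 0 := by
  have h1 : ¬ ∃ n, HasVal w₁ u (0 : F₁ ⊗[F] K) n := fun hc =>
    h.not_mem_nul.2 hc (nul h).zero_mem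
  rw [val, dif_neg h1]

theorem _root_.P025H731.Loc.not_mem_of_isUnit (h : Loc w w₁ u e) {x : F₁ ⊗[F] K}
    (hx : IsUnit x) : x ∉ nul h := fun hc => by
  have h1 : (1 : F₁ ⊗[F] K) ∈ nul h := by
    obtain ⟨y, hy⟩ := hx.exists_left_inv
    rw [← hy]
    exact (nul h).mul_mem_left _ hc
  have h2 := h.inc_not_mem (one_ne_zero (α := K))
  rw [map_one] at h2
  exact h2 h1

/-- the pull back of the valuation to a field embedded in `F₁ ⊗ K`. -/
theorem dv_comp (h : Loc w w₁ u e) {Z : Type*} [Field Z] [Algebra F Z] (j : Z →ₐ[F] F₁ ⊗[F] K) :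
    DV (fun z => val w₁ u (j z)) := by
  have hn : ∀ z : Z, z ≠ 0 → j z ∉ nul h := fun z hz =>
    h.not_mem_of_isUnit ((IsUnit.mk0 z hz).map j)
  refine ⟨?_, fun x y hx hy => ?_, fun x y hx hy hxy => ?_⟩
  · simp only [map_zero]
    exact h.val_zero
  · simp only [map_mul]
    exact h.val_mul (hn x hx) (hn y hy)
  · have h1 := hn _ hxy
    simp only [map_add] at h1 ⊢
    exact h.val_add (hn x hx) (hn y hy) h1

end ValJ

section Main

variable {C F F₁ K Z : Type*} [Field C] [Field F] [Field F₁] [Field K] [Field Z]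
  [Algebra F F₁] [Algebra F K] [Algebra F Z] [Algebra K Z]
  [Algebra C K] [Algebra C Z] [IsScalarTower C K Z] [CFF C K] [CFF C Z]
  [FiniteDimensional F K] {w : F → ℤ} {w₁ : F₁ → ℤ} {e : ℤ}

/-- if all orders of `f` are divisible by `q`, so are the orders of `j f`. -/
theorem dvd_val_j (P : Plk C K) (h : Loc w w₁ (ord P) e) (j : Z →ₐ[F] F₁ ⊗[F] K)
    (hj : ∀ k : K, j (algebraMap K Z k) = 1 ⊗ₜ k) (q : ℤ) (f : Z)
    (hf : ∀ Q : Plk C Z, q ∣ ord Q f) : q ∣ val w₁ (ord P) (j f) := by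
  have hK : ∀ k : K, val w₁ (ord P) (j (algebraMap K Z k)) = ord P k := by
    intro k
    by_cases hk : k = 0
    · rw [hk, map_zero, map_zero, h.val_zero, ord_zero]
    · rw [hj]
      exact h.val_inc hk
  obtain ⟨Q, e', hQ⟩ := exists_place_of_dv (C := C) (fun z => val w₁ (ord P) (j z)) (dv_comp h j)
    (fun c => by
      rw [IsScalarTower.algebraMap_apply C K Z, hK, ord_const])
    (by
      obtain ⟨π, hπ0, hπ⟩ := exists_unif P
      refine ⟨algebraMap K Z π⁻¹, ?_⟩
      rw [hK, ord_inv, hπ]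
      norm_num)
  have := hQ f
  rw [this]
  exact (hf Q).mul_left e'

end Main

end P025H628
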