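import Vale.Agent.P025.R2.H628.La
import Vale.Agent.P025.R2.H837.RnsAt
import Vale.Agent.P025.R2.H816.Amb

/-!
# P025, G-III: (III') (helper628)
-/

set_option linter.style.haveILetI false
set_option linter.unusedSectionVars false

open scoped TensorProduct

namespace P025H628

open P025H373 P025H544 P025H613 P025H731 P025H492 P025H210 P025H450 Vale.Agent.P019P

universe u

variable {C : Type u} [NontriviallyNormedField C] [IsUltrametricDist C] [CompleteSpace C]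
  [IsAlgClosed C] [CharZero C]
  {K : Type u} [Field K] [Algebra C K] [Algebra (RatFunc C) K]
  [IsScalarTower C (RatFunc C) K] [FiniteDimensional (RatFunc C) K] [CFF C K]

/-- the output of (III'): a retraction of a subextension `Z` of a cover `W / K` of the class
`Cov M` and `y ∈ Z` with all orders divisible by `q` and `h = j(y) w ^ q` on `|T| ≤ ‖c‖`. -/
def OutZ (M q : ℕ) (c : Cˣ) (h : K) : Prop :=
  ∃ (Z W : Type u) (_ : Field Z) (_ : Field W) (_ : Algebra C Z) (_ : Algebra C W)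
    (_ : Algebra (RatFunc C) Z) (_ : Algebra K Z) (_ : Algebra K W) (_ : Algebra Z W)
    (_ : IsScalarTower C (RatFunc C) Z) (_ : IsScalarTower (RatFunc C) K Z)
    (_ : IsScalarTower C K Z) (_ : IsScalarTower C K W) (_ : IsScalarTower C Z W)
    (_ : IsScalarTower K Z W) (_ : CFF C Z) (_ : CFF C W) (_ : FiniteDimensional K Z),
    Cov M C K W ∧
    ∃ j : Z →ₐ[RatFunc C] F1r C c ⊗[RatFunc C] K,
      (∀ k : K, j (algebraMap K Z k) = 1 ⊗ₜ k) ∧
      ∃ y : Z, y ≠ 0 ∧ (∀ Q : Plk C Z, (q : ℤ) ∣ ord Q y) ∧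
        ∃ w : (F1r C c ⊗[RatFunc C] K)ˣ, (1 : F1r C c) ⊗ₜ[RatFunc C] h =
          j y * (w : F1r C c ⊗[RatFunc C] K) ^ q

/-- Lemma G and the core. -/
theorem outZ_of {N : Type u} [Field N] [Algebra C N] [Algebra K N] [IsScalarTower C K N]
    [Algebra (RatFunc C) N] [IsScalarTower (RatFunc C) K N] (hamb : Amb C K N)
    {m l : ℕ} (hl : l.Prime) (hlm : Nat.Coprime l m) (q : ℕ) (hq : q ≠ 0)
    (c c1 : Cˣ) (hcc : ‖(c : C)‖ ≤ ‖(c1 : C)‖) (hK1 : IsField (F1r C c1 ⊗[RatFunc C] K))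
    (hR : ∀ P : Plk C K, ord P (TT C K) < 0 → RNSat C m l P c1)
    (hLA : LA K q c c1 hcc) (h : K) (hh : h ≠ 0)
    (hqh : ∀ P : Plk C K, 0 ≤ ord P (TT C K) → (q : ℤ) ∣ ord P h) :
    OutZ (m * l) q c h := by
  obtain ⟨Z, hZ, v, ha, hstep, W, hZW, hW⟩ := P025H837.lemG_rnsat hamb c1 hK1 hl hlm
    (fun P d d' h1 h2 => OnD.unique h1 h2) (fun d => by
      obtain ⟨P, hP, hd⟩ := exists_onD c1 d
      exact ⟨P, hd, hR P hP⟩)
  haveI : NeZero q := ⟨hq⟩
  haveI : CFF C Z := P025H492.cff_of_finite (K := K)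
  haveI : FiniteDimensional K W := hW.fin
  haveI : CFF C W := P025H492.cff_of_finite (K := K)
  haveI : FiniteDimensional (RatFunc C) Z := FiniteDimensional.trans (RatFunc C) K Z
  haveI : IsScalarTower C (RatFunc C) Z := IsScalarTower.of_algebraMap_eq fun a => by
    rw [IsScalarTower.algebraMap_apply (RatFunc C) K Z, ← IsScalarTower.algebraMap_apply C
      (RatFunc C) K, ← IsScalarTower.algebraMap_apply C K Z]
  obtain ⟨j, hj, y, hy0, hy, w, hw⟩ := core (K := K) (Z := Z) c c1 hcc q hK1 v ha hstep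
    (moves (K := Z) c1 hq) hLA h hh (fun P hP => hqh P (ord_nonneg_of_Inn hP))
  letI : Algebra Z W := (IntermediateField.inclusion hZW).toRingHom.toAlgebra
  haveI : IsScalarTower K Z W := IsScalarTower.of_algebraMap_eq fun _ => rfl
  haveI : IsScalarTower C Z W := IsScalarTower.of_algebraMap_eq fun _ => rfl
  exact ⟨Z, W, inferInstance, inferInstance, inferInstance, inferInstance, inferInstance,
    inferInstance, inferInstance, inferInstance, inferInstance, inferInstance, inferInstance,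
    inferInstance, inferInstance, inferInstance, inferInstance, inferInstance, hZ, hW, j, hj, y,
    hy0, hy, w, hw⟩

/-- **(III')**, with `RNSat` at the poles of `T` for all radii `≥ r1`. -/
theorem three'_at {m l : ℕ} (hl : l.Prime) (hlm : Nat.Coprime l m) (r1 : ℝ)
    (hR : ∀ c : Cˣ, r1 ≤ ‖(c : C)‖ → ∀ P : Plk C K, ord P (TT C K) < 0 → RNSat C m l P c) :
    ∃ (r0 : ℝ) (Nm : ℕ), 0 < r0 ∧ ∀ q : ℕ, 0 < q → ∀ c : Cˣ,
      r0 < ‖(c : C)‖ * ‖(q : C)‖ ^ Nm → ∀ h : K, h ≠ 0 →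
      (∀ P : Plk C K, 0 ≤ ord P (TT C K) → (q : ℤ) ∣ ord P h) → OutZ (m * l) q c h := by
  obtain ⟨N, hamb⟩ := P025H816.exists_amb C K
  obtain ⟨D⟩ := exists_charts C K
  obtain ⟨c0, hc0⟩ : ∃ c0 : Cˣ, max D.r0 r1 ≤ ‖(c0 : C)‖ := by
    obtain ⟨x, hx⟩ := NormedField.exists_lt_norm C (max D.r0 r1)
    have hx0 : x ≠ 0 := by
      rintro rfl
      rw [norm_zero] at hx
      exact absurd (lt_of_le_of_lt (le_max_left _ _) hx) (not_lt.2 D.r0_pos.le)
    exact ⟨Units.mk0 x hx0, hx.le⟩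
  have hc0D : D.r0 ≤ ‖(c0 : C)‖ := (le_max_left _ _).trans hc0
  have hc0R : r1 ≤ ‖(c0 : C)‖ := (le_max_right _ _).trans hc0
  obtain ⟨M, hM⟩ : ∃ M : ℕ, ∀ P : Pole C K, P.N ≤ M := by
    obtain ⟨M, hM⟩ := (Set.finite_range (fun P : Pole C K => P.N)).bddAbove
    exact ⟨M, fun P => hM ⟨P, rfl⟩⟩
  refine ⟨‖(c0 : C)‖, 2 * M, norm_pos_iff.2 c0.ne_zero, ?_⟩
  intro q hq c hc h hh hqh
  have hq0 : q ≠ 0 := hq.ne'
  have hqC : (q : C) ≠ 0 := Nat.cast_ne_zero.2 hq0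
  have hq1 : ‖(q : C)‖ ≤ 1 := P025H469.norm_natCast_le_one' q
  have hqp : 0 < ‖(q : C)‖ ^ (2 * M) := pow_pos (norm_pos_iff.2 hqC) _
  have hqM : ∀ P : Pole C K, ‖(q : C)‖ ^ (2 * M) ≤ (‖(q : C)‖ ^ 2) ^ P.N := fun P => by
    rw [← pow_mul]
    exact pow_le_pow_of_le_one (norm_nonneg _) hq1 (Nat.mul_le_mul_left 2 (hM P))
  have hqM1 : ‖(q : C)‖ ^ (2 * M) ≤ 1 := pow_le_one₀ (norm_nonneg _) hq1
  let c1 : Cˣ := c * ((Units.mk0 (q : C) hqC) ^ (2 * M))⁻¹
  have hc1 : ‖(c1 : C)‖ * ‖(q : C)‖ ^ (2 * M) = ‖(c : C)‖ := by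
    have e : (c1 : C) * (q : C) ^ (2 * M) = c := by
      change ((c * ((Units.mk0 (q : C) hqC) ^ (2 * M))⁻¹ : Cˣ) : C) * (q : C) ^ (2 * M) = c
      rw [Units.val_mul, Units.val_inv_eq_inv_val, Units.val_pow_eq_pow_val, Units.val_mk0,
        mul_assoc, inv_mul_cancel₀ (pow_ne_zero _ hqC), mul_one]
    rw [← norm_pow, ← norm_mul, e]
  have h3 : ‖(c0 : C)‖ ≤ ‖(c : C)‖ :=
    hc.le.trans (mul_le_of_le_one_right (norm_nonneg _) hqM1)
  have h4 : ‖(c : C)‖ ≤ ‖(c1 : C)‖ := by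
    rw [← hc1]
    exact mul_le_of_le_one_right (norm_nonneg _) hqM1
  have hLA : LA K q c c1 h4 := la_of_charts hq0 D c0 c c1 hc0D h3 h4
    (fun P => hc.trans_le (mul_le_mul_of_nonneg_left (hqM P) (norm_nonneg _)))
    (fun P => hc1.symm.le.trans (mul_le_mul_of_nonneg_left (hqM P) (norm_nonneg _)))
  exact outZ_of hamb hl hlm q hq0 c c1 h4 (D.isField c1 (hc0D.trans (h3.trans h4)))
    (hR c1 (hc0R.trans (h3.trans h4))) hLA h hh hqh

end P025H628
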