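import Vale.Agent.P025.R2.H628.Three1
import Vale.Agent.P025.R2.H628.Kum
import Vale.Agent.P025.R2.H628.Clos
import Vale.Agent.P025.R2.H535.Closure2

/-!
# P025, G-III: (III) from (III') (helper628)
-/

set_option linter.style.haveILetI false
set_option linter.unusedSectionVars false

open scoped TensorProduct

namespace P025H628

open P025H373 P025H544 P025H613 P025H731 P025H492 P025H210 P025H450 Vale.Agent.P019P

universe u

variable {C : Type u} [NontriviallyNormedField C] [IsUltrametricDist C] [CompleteSpace C]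
  [IsAlgClosed C] [CharZero C]
  {K : Type u} [Field K] [Algebra C K] [Algebra (RatFunc C) K]
  [IsScalarTower C (RatFunc C) K] [FiniteDimensional (RatFunc C) K] [CFF C K]

/-- the output of (III): a cover of the class `Cov M` over which `h` is a `q`-th power on
`|T| ≤ ‖c‖`. -/
def OutL (M q : ℕ) (c : Cˣ) (h : K) : Prop :=
  ∃ (L : Type u) (_ : Field L) (_ : Algebra C L) (_ : Algebra (RatFunc C) L) (_ : Algebra K L)
    (_ : IsScalarTower C (RatFunc C) L) (_ : IsScalarTower C K L)
    (_ : IsScalarTower (RatFunc C) K L) (_ : CFF C L), Cov M C K L ∧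
    ∃ s : F1r C c ⊗[RatFunc C] L, s ^ q = (1 : F1r C c) ⊗ₜ[RatFunc C] algebraMap K L h

theorem OutZ.outL {M q : ℕ} (hq : q ≠ 0) {c : Cˣ} {h : K} (H : OutZ M q c h) :
    OutL (M * q) q c h := by
  obtain ⟨Z, W, _, _, _, _, _, _, _, _, _, _, _, _, _, _, _, _, _, hW, j, hj, y, hy0, hy, w, hw⟩ :=
    H
  obtain ⟨L, _, _, _, _, _, _, hg, hs, hu, hd, z, hz⟩ := exists_kum (C := C) hq y hy0 hy
  haveI : CharZero K := charZero_of_injective_algebraMap (algebraMap C K).injective
  haveI : FiniteDimensional K W := hW.fin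
  haveI : IsGalois K W := hW.gal
  haveI : Group.IsSolvable (W ≃ₐ[K] W) := hW.sol
  letI : Algebra K L := ((algebraMap Z L).comp (algebraMap K Z)).toAlgebra
  haveI : IsScalarTower K Z L := IsScalarTower.of_algebraMap_eq fun _ => rfl
  haveI : IsScalarTower C K L := IsScalarTower.of_algebraMap_eq fun a => by
    rw [IsScalarTower.algebraMap_apply K Z L, ← IsScalarTower.algebraMap_apply C K Z,
      ← IsScalarTower.algebraMap_apply C Z L]
  have hWu : IsUnr C K W := fun Q => hW.unr Q
  obtain ⟨E, _, _, _, _, _, _, _, _, _, hEg, hEs, hEu, j0, hj0⟩ :=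
    P025H535.exists_galois_closure (k := C) (K := K) (Z := Z) (W := W) (L := L) hWu hu
  letI : Algebra (RatFunc C) E := ((algebraMap K E).comp (algebraMap (RatFunc C) K)).toAlgebra
  haveI : IsScalarTower (RatFunc C) K E := IsScalarTower.of_algebraMap_eq fun _ => rfl
  haveI : IsScalarTower C (RatFunc C) E := IsScalarTower.of_algebraMap_eq fun a => by
    rw [IsScalarTower.algebraMap_apply (RatFunc C) K E, ← IsScalarTower.algebraMap_apply C
      (RatFunc C) K, ← IsScalarTower.algebraMap_apply C K E]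
  letI : Algebra Z E := ((algebraMap L E).comp (algebraMap Z L)).toAlgebra
  haveI : IsScalarTower Z L E := IsScalarTower.of_algebraMap_eq fun _ => rfl
  haveI : IsScalarTower K Z E := IsScalarTower.of_algebraMap_eq fun a => by
    rw [IsScalarTower.algebraMap_apply Z L E, ← IsScalarTower.algebraMap_apply K Z L,
      ← IsScalarTower.algebraMap_apply K L E]
  haveI : FiniteDimensional (RatFunc C) E := FiniteDimensional.trans (RatFunc C) K E
  haveI : CharZero (RatFunc C) :=
    charZero_of_injective_algebraMap (algebraMap C (RatFunc C)).injective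
  haveI : Algebra.IsSeparable (RatFunc C) E := inferInstance
  haveI : IsReduced (F1r C c ⊗[RatFunc C] E) := isReduced_tensor
  refine ⟨E, inferInstance, inferInstance, inferInstance, inferInstance, inferInstance,
    inferInstance, inferInstance, inferInstance, ⟨inferInstance, hEg, hEs, ?_, fun Q => hEu Q⟩, ?_⟩
  · obtain ⟨a, ha⟩ := hW.deg
    refine ⟨(a + 1) * j0, hj0.trans ?_⟩
    rw [pow_mul]
    refine pow_dvd_pow_of_dvd ?_ j0
    rw [mul_pow]
    exact mul_dvd_mul (ha.trans (pow_dvd_pow _ (Nat.le_succ a)))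
      (hd.trans (dvd_pow_self _ (Nat.succ_ne_zero a)))
  · refine isPow_tensor (F := RatFunc C) (F1 := F1r C c) (K := K) (Z := Z) (L := E) j hj q y
      (algebraMap L E z) ?_ h w hw
    rw [← map_pow, hz, ← IsScalarTower.algebraMap_apply Z L E]

/-- **(III)**, with `RNSat` at the poles of `T` for all radii `≥ r1`. -/
theorem three_at {m l : ℕ} (hl : l.Prime) (hlm : Nat.Coprime l m) (r1 : ℝ)
    (hR : ∀ c : Cˣ, r1 ≤ ‖(c : C)‖ → ∀ P : Plk C K, ord P (TT C K) < 0 → RNSat C m l P c) :
    ∃ (r0 : ℝ) (Nm : ℕ), 0 < r0 ∧ ∀ q : ℕ, 0 < q → ∀ c : Cˣ,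
      r0 < ‖(c : C)‖ * ‖(q : C)‖ ^ Nm → ∀ h : K, h ≠ 0 →
      (∀ P : Plk C K, 0 ≤ ord P (TT C K) → (q : ℤ) ∣ ord P h) →
      OutL (m * l * q) q c h := by
  obtain ⟨r0, Nm, hr0, H⟩ := three'_at (K := K) hl hlm r1 hR
  exact ⟨r0, Nm, hr0, fun q hq c hc h hh hqh => (H q hq c hc h hh hqh).outL hq.ne'⟩

end P025H628
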