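import Vale.Agent.P025.R2.H628.Three2

/-!
# P025, G-III: (III') and (III), radii depending on the pole (helper628)
-/

set_option linter.style.haveILetI false
set_option linter.unusedSectionVars false

open scoped TensorProduct

namespace P025H628

open P025H373 P025H544 P025H613 P025H731 P025H492 P025H210 P025H450 Vale.Agent.P019P

universe u

variable {C : Type u} [NontriviallyNormedField C] [IsUltrametricDist C] [CompleteSpace C]
  [IsAlgClosed C] [CharZero C]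
  {K : Type u} [Field K] [Algebra C K] [Algebra (RatFunc C) K]
  [IsScalarTower C (RatFunc C) K] [FiniteDimensional (RatFunc C) K] [CFF C K]

/-- one radius for all poles. -/
theorem exists_radius {m l : ℕ} (hR : ∀ P : Plk C K, ord P (TT C K) < 0 →
      ∃ r : ℝ, ∀ c : Cˣ, r ≤ ‖(c : C)‖ → RNSat C m l P c) :
    ∃ r1 : ℝ, ∀ c : Cˣ, r1 ≤ ‖(c : C)‖ → ∀ P : Plk C K, ord P (TT C K) < 0 →
      RNSat C m l P c := by
  choose r hr using fun P : Pole C K => hR P.1 P.2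
  obtain ⟨M, hM⟩ := (Set.finite_range r).bddAbove
  exact ⟨M, fun c hc P hP => hr ⟨P, hP⟩ c ((hM ⟨⟨P, hP⟩, rfl⟩).trans hc)⟩

/-- **(III')**, `RNSat` at the poles of `T` for large radii. -/
theorem three'_of {m l : ℕ} (hl : l.Prime) (hlm : Nat.Coprime l m)
    (hR : ∀ P : Plk C K, ord P (TT C K) < 0 →
      ∃ r : ℝ, ∀ c : Cˣ, r ≤ ‖(c : C)‖ → RNSat C m l P c) :
    ∃ (r0 : ℝ) (Nm : ℕ), 0 < r0 ∧ ∀ q : ℕ, 0 < q → ∀ c : Cˣ,
      r0 < ‖(c : C)‖ * ‖(q : C)‖ ^ Nm → ∀ h : K, h ≠ 0 →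
      (∀ P : Plk C K, 0 ≤ ord P (TT C K) → (q : ℤ) ∣ ord P h) → OutZ (m * l) q c h := by
  obtain ⟨r1, h1⟩ := exists_radius hR
  exact three'_at hl hlm r1 h1

/-- **(III)**, `RNSat` at the poles of `T` for large radii. -/
theorem three_of {m l : ℕ} (hl : l.Prime) (hlm : Nat.Coprime l m)
    (hR : ∀ P : Plk C K, ord P (TT C K) < 0 →
      ∃ r : ℝ, ∀ c : Cˣ, r ≤ ‖(c : C)‖ → RNSat C m l P c) :
    ∃ (r0 : ℝ) (Nm : ℕ), 0 < r0 ∧ ∀ q : ℕ, 0 < q → ∀ c : Cˣ,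
      r0 < ‖(c : C)‖ * ‖(q : C)‖ ^ Nm → ∀ h : K, h ≠ 0 →
      (∀ P : Plk C K, 0 ≤ ord P (TT C K) → (q : ℤ) ∣ ord P h) →
      OutL (m * l * q) q c h := by
  obtain ⟨r1, h1⟩ := exists_radius hR
  exact three_at hl hlm r1 h1

end P025H628
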