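import Vale.Agent.P025.R2.H628.Three4
import Vale.Agent.P025.R2.H450.Mono

/-!
# P025, G-III: (III') and (III) from RNS (helper628); G-MONO is `P025H450.RNS.at`
-/

set_option linter.style.haveILetI false
set_option linter.unusedSectionVars false

open scoped TensorProduct

namespace P025H628

open P025H373 P025H544 P025H613 P025H731 P025H492 P025H210 P025H450 P025H666 Vale.Agent.P019P

universe u

variable (C : Type u) [NontriviallyNormedField C] [IsUltrametricDist C] [CompleteSpace C]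
  [IsAlgClosed C] [CharZero C]

/-- G-MONO in the form of `H666.Asm2`. -/
theorem mono : Mono C := fun _ _ _ _ _ _ _ h _ _ c hc => h.at c (Or.inl hc)

/-- **(III')** from RNS at the poles of `T`. -/
theorem three' (K : Type u) [Field K] [Algebra C K]
    [Algebra (RatFunc C) K] [IsScalarTower C (RatFunc C) K] [FiniteDimensional (RatFunc C) K]
    [CFF C K] (m l : ℕ) (hl : l.Prime) (hlm : Nat.Coprime l m)
    (hR : ∀ P : Plk C K, ord P (TT C K) < 0 → RNS m l C K P) :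
    ∃ (r0 : ℝ) (Nm : ℕ), 0 < r0 ∧ ∀ q : ℕ, 0 < q → ∀ c : Cˣ, r0 < ‖(c : C)‖ * ‖(q : C)‖ ^ Nm →
      ∀ h : K, h ≠ 0 → (∀ P : Plk C K, 0 ≤ ord P (TT C K) → (q : ℤ) ∣ ord P h) →
      ∃ (Z W : Type u) (_ : Field Z) (_ : Field W) (_ : Algebra C Z) (_ : Algebra C W)
        (_ : Algebra K Z) (_ : Algebra K W) (_ : Algebra Z W) (_ : Algebra (RatFunc C) Z)
        (_ : IsScalarTower C K Z) (_ : IsScalarTower C K W) (_ : IsScalarTower C Z W)
        (_ : IsScalarTower K Z W) (_ : IsScalarTower (RatFunc C) K Z)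
        (_ : IsScalarTower C (RatFunc C) Z) (_ : CFF C Z) (_ : CFF C W),
        Cov (m * l) C K W ∧
        ∃ j : Z →ₐ[RatFunc C] F1r C c ⊗[RatFunc C] K,
          (∀ k : K, j (algebraMap K Z k) = 1 ⊗ₜ k) ∧
          ∃ y : Z, y ≠ 0 ∧ (∀ P : Plk C Z, (q : ℤ) ∣ ord P y) ∧
            ∃ w : (F1r C c ⊗[RatFunc C] K)ˣ,
              (1 : F1r C c) ⊗ₜ[RatFunc C] h = j y * (w : F1r C c ⊗[RatFunc C] K) ^ q :=
  three'_mono (mono C) K m l hl hlm hR

/-- **(III)** from RNS at the poles of `T`. -/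
theorem three (K : Type u) [Field K] [Algebra C K]
    [Algebra (RatFunc C) K] [IsScalarTower C (RatFunc C) K] [FiniteDimensional (RatFunc C) K]
    [CFF C K] (m l : ℕ) (hl : l.Prime) (hlm : Nat.Coprime l m)
    (hR : ∀ P : Plk C K, ord P (TT C K) < 0 → RNS m l C K P) :
    ∃ (r0 : ℝ) (Nm : ℕ), 0 < r0 ∧ ∀ q : ℕ, 0 < q → ∀ c : Cˣ, r0 < ‖(c : C)‖ * ‖(q : C)‖ ^ Nm →
      ∀ h : K, h ≠ 0 → (∀ P : Plk C K, 0 ≤ ord P (TT C K) → (q : ℤ) ∣ ord P h) →
      ∃ (L : Type u) (_ : Field L) (_ : Algebra C L) (_ : Algebra K L) (_ : Algebra (RatFunc C) L)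
        (_ : IsScalarTower C K L) (_ : IsScalarTower C (RatFunc C) L)
        (_ : IsScalarTower (RatFunc C) K L) (_ : CFF C L), Cov (m * l * q) C K L ∧
        ∃ s : F1r C c ⊗[RatFunc C] L,
          s ^ q = (1 : F1r C c) ⊗ₜ[RatFunc C] algebraMap K L h :=
  three_mono (mono C) K m l hl hlm hR

end P025H628
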